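import Mathlib

namespace Vale.Agent.P067

/-- Choice of the parameters. -/
lemma arith (d : ℕ) (c : ℝ) (hc : 0 < c) :
    ∃ k : ℕ, 0 < k ∧ ∀ C n : ℕ, ∃ m : ℕ, n ≤ m ∧ d + 1 ≤ m ∧
      ∀ N : ℕ, m ^ k ≤ N → ((C * (k * m) ^ d : ℕ) : ℝ) ≤ (N : ℝ) ^ c := by
  refine ⟨⌈((d : ℝ) + 1) / c⌉₊ + 1, Nat.succ_pos _, ?_⟩
  set k := ⌈((d : ℝ) + 1) / c⌉₊ + 1 with hk
  have hkc : ((d : ℝ) + 1) ≤ (k : ℝ) * c := by
    have h1 : ((d : ℝ) + 1) / c ≤ (k : ℝ) := by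
      have := Nat.le_ceil (((d : ℝ) + 1) / c)
      rw [hk]; push_cast; linarith
    rwa [div_le_iff₀ hc] at h1
  intro C n
  refine ⟨max n (max (d + 1) (C * k ^ d)), le_max_left _ _,
    (le_max_left _ _).trans (le_max_right _ _), ?_⟩
  set m := max n (max (d + 1) (C * k ^ d)) with hm
  have hm1 : 1 ≤ m := le_trans (by omega) ((le_max_left (d + 1) _).trans (le_max_right n _))
  have hmC : C * k ^ d ≤ m := (le_max_right _ _).trans (le_max_right _ _)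
  intro N hN
  have h1 : C * (k * m) ^ d ≤ m ^ (d + 1) := by
    rw [mul_pow, ← mul_assoc, pow_succ, mul_comm (m ^ d) m]
    exact Nat.mul_le_mul_right _ hmC
  have hm1' : (1 : ℝ) ≤ (m : ℝ) := by exact_mod_cast hm1
  have h2 : ((C * (k * m) ^ d : ℕ) : ℝ) ≤ (m : ℝ) ^ (d + 1) := by exact_mod_cast h1
  have h3 : (m : ℝ) ^ (d + 1) ≤ (m : ℝ) ^ ((k : ℝ) * c) := by
    rw [← Real.rpow_natCast]
    refine Real.rpow_le_rpow_of_exponent_le hm1' ?_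
    push_cast
    exact hkc
  have h4 : (m : ℝ) ^ ((k : ℝ) * c) = ((m : ℝ) ^ k) ^ c := by
    rw [Real.rpow_mul (by positivity), Real.rpow_natCast]
  have h5 : ((m : ℝ) ^ k) ^ c ≤ (N : ℝ) ^ c := by
    refine Real.rpow_le_rpow (by positivity) ?_ hc.le
    exact_mod_cast hN
  calc ((C * (k * m) ^ d : ℕ) : ℝ) ≤ (m : ℝ) ^ (d + 1) := h2
    _ ≤ (m : ℝ) ^ ((k : ℝ) * c) := h3
    _ = ((m : ℝ) ^ k) ^ c := h4
    _ ≤ (N : ℝ) ^ c := h5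

end Vale.Agent.P067
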