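import Vale.Agent.P067.Defs

namespace Vale.Agent.P067

open Finset
open scoped Classical

set_option linter.unusedSectionVars false

variable {V : Type} [Fintype V]

lemma mem_F {X : AbstractSimplicialComplex V} {i : ℕ} {s : Finset V} :
    s ∈ F X i ↔ s ∈ X.faces ∧ s.card = i + 1 := by
  simp [F]

lemma face_of_subset {X : AbstractSimplicialComplex V} {s t : Finset V} (hs : s ∈ X.faces)
    (hts : t ⊆ s) (ht : t.Nonempty) : t ∈ X.faces :=
  (X.isRelLowerSet_faces hs).2 hts ht

lemma mem_F_of_subset {X : AbstractSimplicialComplex V} {i j : ℕ} {s t : Finset V}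
    (hs : s ∈ F X j) (hts : t ⊆ s) (ht : t.card = i + 1) : t ∈ F X i := by
  rw [mem_F] at hs ⊢
  refine ⟨face_of_subset hs.1 hts ?_, ht⟩
  rw [← Finset.card_pos]; omega

lemma cob_add (i : ℕ) (f g : Finset V → ZMod 2) : cob i (f + g) = cob i f + cob i g := by
  funext t
  simp [cob, Finset.sum_add_distrib]

lemma cob_sub (i : ℕ) (f g : Finset V → ZMod 2) : cob i (f - g) = cob i f - cob i g := by
  funext t
  simp [cob, Finset.sum_sub_distrib]

lemma cob_zero (i : ℕ) : cob i (0 : Finset V → ZMod 2) = 0 := by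
  funext t
  simp [cob]

lemma cob_congr {X : AbstractSimplicialComplex V} {i : ℕ} {f g : Finset V → ZMod 2}
    (h : ∀ s ∈ F X i, f s = g s) {t : Finset V} (ht : t ∈ F X (i + 1)) :
    cob i f t = cob i g t := by
  unfold cob
  apply Finset.sum_congr rfl
  intro s hs
  rw [Finset.mem_powersetCard] at hs
  exact h s (mem_F_of_subset ht hs.1 hs.2)

lemma two_eq_zero_zmod : (2 : ZMod 2) = 0 := by decide

lemma zmod2_add_self (a : ZMod 2) : a + a = 0 := by
  revert a; decide

lemma zmod2_sub_eq_add (a b : ZMod 2) : a - b = a + b := by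
  revert a b; decide

lemma zmod2_ne_zero_iff (a : ZMod 2) : a ≠ 0 ↔ a = 1 := by
  revert a; decide

/-- `δ δ = 0`. -/
lemma cob_cob (i : ℕ) (f : Finset V → ZMod 2) {t : Finset V} (ht : t.card = i + 3) :
    cob (i + 1) (cob i f) t = 0 := by
  unfold cob
  have h1 : ∑ s ∈ t.powersetCard (i + 1 + 1), ∑ r ∈ s.powersetCard (i + 1), f r
      = ∑ r ∈ t.powersetCard (i + 1), ∑ s ∈ (t.powersetCard (i + 1 + 1)).filter (fun s => r ⊆ s),
          f r := by
    apply Finset.sum_comm'
    intro s r
    simp only [Finset.mem_powersetCard, Finset.mem_filter]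
    constructor
    · rintro ⟨⟨hst, hs⟩, hrs, hr⟩
      exact ⟨⟨⟨hst, hs⟩, hrs⟩, hrs.trans hst, hr⟩
    · rintro ⟨⟨⟨hst, hs⟩, hrs⟩, hrt, hr⟩
      exact ⟨⟨hst, hs⟩, hrs, hr⟩
  rw [h1]
  apply Finset.sum_eq_zero
  intro r hr
  rw [Finset.mem_powersetCard] at hr
  rw [Finset.sum_const]
  have hcard : ((t.powersetCard (i + 1 + 1)).filter (fun s => r ⊆ s)).card = 2 := by
    have hbij : ((t.powersetCard (i + 1 + 1)).filter (fun s => r ⊆ s))
        = (t \ r).image (fun v => insert v r) := by
      ext s
      simp only [Finset.mem_filter, Finset.mem_powersetCard, Finset.mem_image, Finset.mem_sdiff]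
      constructor
      · rintro ⟨⟨hst, hs⟩, hrs⟩
        have hc : (s \ r).card = 1 := by
          rw [Finset.card_sdiff_of_subset hrs]; omega
        obtain ⟨v, hv⟩ := Finset.card_eq_one.mp hc
        have hvm : v ∈ s \ r := by rw [hv]; exact Finset.mem_singleton_self v
        rw [Finset.mem_sdiff] at hvm
        refine ⟨v, ⟨hst hvm.1, hvm.2⟩, ?_⟩
        have : s = (s \ r) ∪ r := (Finset.sdiff_union_of_subset hrs).symm
        rw [this, hv]
        rfl
      · rintro ⟨v, ⟨hvt, hvr⟩, rfl⟩
        refine ⟨⟨?_, ?_⟩, Finset.subset_insert v r⟩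
        · exact Finset.insert_subset hvt hr.1
        · rw [Finset.card_insert_of_notMem hvr]; omega
    rw [hbij, Finset.card_image_of_injOn]
    · rw [Finset.card_sdiff_of_subset hr.1]; omega
    · intro a ha b hb hab
      simp only [Finset.coe_sdiff, Set.mem_sdiff, Finset.mem_coe] at ha hb
      have hab' : insert a r = insert b r := hab
      have : a ∈ insert b r := by rw [← hab']; exact Finset.mem_insert_self a r
      rcases Finset.mem_insert.mp this with h | h
      · exact h
      · exact absurd h ha.2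
  rw [hcard]
  simp only [nsmul_eq_mul, Nat.cast_ofNat]
  rw [two_eq_zero_zmod, zero_mul]

/-- The coboundary of a function constant on singletons vanishes on two-element sets. -/
lemma cob_zero_const {b : Finset V → ZMod 2} {c : ZMod 2} (hb : ∀ v : V, b {v} = c)
    {t : Finset V} (ht : t.card = 2) : cob 0 b t = 0 := by
  unfold cob
  have : ∀ s ∈ t.powersetCard (0 + 1), b s = c := by
    intro s hs
    rw [Finset.mem_powersetCard] at hs
    obtain ⟨v, rfl⟩ := Finset.card_eq_one.mp hs.2
    exact hb v
  rw [Finset.sum_congr rfl this, Finset.sum_const, Finset.card_powersetCard, ht]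
  simp only [zero_add, Nat.choose_one_right, nsmul_eq_mul, Nat.cast_ofNat]
  rw [two_eq_zero_zmod, zero_mul]

lemma singleton_mem_F (X : AbstractSimplicialComplex V) (v : V) : ({v} : Finset V) ∈ F X 0 := by
  rw [mem_F]
  exact ⟨X.singleton_mem v, by simp⟩

/-- Coboundaries are cocycles. -/
lemma cob_of_isCobdry {X : AbstractSimplicialComplex V} {i : ℕ} {b : Finset V → ZMod 2}
    (hb : IsCobdry X i b) {t : Finset V} (ht : t ∈ F X (i + 1)) : cob i b t = 0 := by
  cases i with
  | zero =>
    obtain ⟨c, hc⟩ := hb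
    exact cob_zero_const (fun v => hc _ (singleton_mem_F X v)) (mem_F.mp ht).2
  | succ j =>
    obtain ⟨g, hg⟩ := hb
    rw [cob_congr hg ht]
    exact cob_cob j g (mem_F.mp ht).2

/-- Unnormalised norm: the sum of the degrees of the faces in the support. -/
noncomputable def mass (X : AbstractSimplicialComplex V) (d i : ℕ) (f : Finset V → ZMod 2) : ℕ :=
  ∑ s ∈ (F X i).filter (fun s => f s ≠ 0), deg X d s

lemma nrm_eq (X : AbstractSimplicialComplex V) (d i : ℕ) (f : Finset V → ZMod 2) :
    nrm X d i f = (mass X d i f : ℝ) / (((d + 1).choose (i + 1) : ℝ) * ((F X d).card : ℝ)) := by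
  unfold nrm mass wt
  rw [Nat.cast_sum, Finset.sum_div]

lemma nrm_nonneg (X : AbstractSimplicialComplex V) (d i : ℕ) (f : Finset V → ZMod 2) :
    0 ≤ nrm X d i f := by
  rw [nrm_eq]
  positivity

lemma deg_top {X : AbstractSimplicialComplex V} {d : ℕ} {t : Finset V} (ht : t ∈ F X d) :
    deg X d t = 1 := by
  unfold deg
  have : (F X d).filter (fun u => t ⊆ u) = {t} := by
    ext u
    simp only [Finset.mem_filter, Finset.mem_singleton]
    constructor
    · rintro ⟨hu, htu⟩
      exact (Finset.eq_of_subset_of_card_le htu (by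
        rw [(mem_F.mp hu).2, (mem_F.mp ht).2])).symm
    · rintro rfl
      exact ⟨ht, Finset.Subset.refl _⟩
  rw [this, Finset.card_singleton]

lemma mass_congr {X : AbstractSimplicialComplex V} {d i : ℕ} {f g : Finset V → ZMod 2}
    (h : ∀ s ∈ F X i, f s = g s) : mass X d i f = mass X d i g := by
  unfold mass
  have : (F X i).filter (fun s => f s ≠ 0) = (F X i).filter (fun s => g s ≠ 0) := by
    apply Finset.filter_congr
    intro s hs
    rw [h s hs]
  rw [this]

lemma nrm_congr {X : AbstractSimplicialComplex V} {d i : ℕ} {f g : Finset V → ZMod 2}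
    (h : ∀ s ∈ F X i, f s = g s) : nrm X d i f = nrm X d i g := by
  rw [nrm_eq, nrm_eq, mass_congr h]

/-- The indicator cochain of a set. -/
noncomputable def ind (a : Finset V) : Finset V → ZMod 2 := fun t => if t = a then 1 else 0

lemma cob_ind {i : ℕ} {a : Finset V} (ha : a.card = i + 1) (t : Finset V) :
    cob i (ind a) t = if a ⊆ t then 1 else 0 := by
  unfold cob ind
  rw [Finset.sum_ite_eq']
  simp [Finset.mem_powersetCard, ha]

end Vale.Agent.P067
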