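import Vale.Agent.P067.Contr

namespace Vale.Agent.P067

open Finset
open scoped Classical

set_option linter.unusedSectionVars false

variable {V : Type} [Fintype V]

lemma cob_zero_apply (u : Finset V → ZMod 2) (t : Finset V) :
    cob 0 u t = ∑ v ∈ t, u {v} := by
  unfold cob
  rw [zero_add, Finset.powersetCard_one, Finset.sum_map]
  rfl

/-- Balls in the `1`-skeleton. -/
noncomputable def vBall (X : AbstractSimplicialComplex V) (x0 : V) : ℕ → Finset V
  | 0 => {x0}
  | (r + 1) => vBall X x0 r ∪
      Finset.univ.filter (fun w => ∃ v ∈ vBall X x0 r, ({v, w} : Finset V) ∈ F X 1)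

lemma vBall_subset_succ (X : AbstractSimplicialComplex V) (x0 : V) (r : ℕ) :
    vBall X x0 r ⊆ vBall X x0 (r + 1) := by
  intro t ht
  simp only [vBall, Finset.mem_union]
  exact Or.inl ht

lemma vBall_mono (X : AbstractSimplicialComplex V) (x0 : V) {r r' : ℕ} (h : r ≤ r') :
    vBall X x0 r ⊆ vBall X x0 r' := by
  induction h with
  | refl => exact Finset.Subset.refl _
  | step _ ih => exact ih.trans (vBall_subset_succ X x0 _)

lemma base_mem_vBall (X : AbstractSimplicialComplex V) (x0 : V) (r : ℕ) : x0 ∈ vBall X x0 r :=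
  vBall_mono X x0 (Nat.zero_le r) (by simp [vBall])

lemma card_nbrs_le {X : AbstractSimplicialComplex V} {D1 : ℕ} (hco : CofaceLE X D1) (v : V) :
    (Finset.univ.filter (fun w => ({v, w} : Finset V) ∈ F X 1)).card ≤ D1 := by
  refine le_trans ?_ (hco 0 {v} (singleton_mem_F X v))
  apply Finset.card_le_card_of_injOn (fun w => ({v, w} : Finset V))
  · intro w hw
    simp only [Finset.coe_filter, Finset.mem_univ, true_and, Set.mem_setOf_eq] at hw
    simp only [Finset.coe_filter, Set.mem_setOf_eq]
    exact ⟨hw, by simp⟩
  · intro w hw w' hw' heq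
    simp only [Finset.coe_filter, Finset.mem_univ, true_and, Set.mem_setOf_eq] at hw hw'
    have hne : v ≠ w := by
      rintro rfl
      have := (mem_F.mp hw).2
      simp at this
    have hne' : v ≠ w' := by
      rintro rfl
      have := (mem_F.mp hw').2
      simp at this
    have h1 : w ∈ ({v, w'} : Finset V) := by
      have heq' : ({v, w} : Finset V) = {v, w'} := heq
      rw [← heq']; simp
    simp only [Finset.mem_insert, Finset.mem_singleton] at h1
    rcases h1 with h | h
    · exact absurd h.symm hne
    · exact h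

lemma card_vBall_le {X : AbstractSimplicialComplex V} {D1 : ℕ} (hco : CofaceLE X D1) (x0 : V)
    (r : ℕ) : (vBall X x0 r).card ≤ (D1 + 1) ^ r := by
  induction r with
  | zero => simp [vBall]
  | succ r ih =>
    have hsub : vBall X x0 (r + 1) ⊆ vBall X x0 r ∪
        (vBall X x0 r).biUnion (fun v => Finset.univ.filter (fun w => ({v, w} : Finset V) ∈ F X 1)) := by
      intro w hw
      simp only [vBall, Finset.mem_union, Finset.mem_filter, Finset.mem_univ, true_and] at hw
      rw [Finset.mem_union, Finset.mem_biUnion]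
      rcases hw with h | ⟨v, hv, hvw⟩
      · exact Or.inl h
      · exact Or.inr ⟨v, hv, by simp [hvw]⟩
    calc (vBall X x0 (r + 1)).card
        ≤ (vBall X x0 r).card + ((vBall X x0 r).biUnion
            (fun v => Finset.univ.filter (fun w => ({v, w} : Finset V) ∈ F X 1))).card :=
          le_trans (Finset.card_le_card hsub) (Finset.card_union_le _ _)
      _ ≤ (vBall X x0 r).card + (vBall X x0 r).card * D1 := by
          apply Nat.add_le_add_left
          exact Finset.card_biUnion_le_card_mul _ _ _ (fun v _ => card_nbrs_le hco v)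
      _ = (vBall X x0 r).card * (D1 + 1) := by ring
      _ ≤ (D1 + 1) ^ r * (D1 + 1) := Nat.mul_le_mul_right _ ih
      _ = (D1 + 1) ^ (r + 1) := by ring

/-- The set of edges whose column contains the vertex `v`. -/
noncomputable def Eset (X : AbstractSimplicialComplex V) (G : Finset V → Finset V → ZMod 2)
    (v : V) : Finset (Finset V) :=
  (F X 1).filter (fun e => G e {v} ≠ 0)

/-- indicator `0`-cochain of a set of vertices -/
noncomputable def vind (A : Finset V) : Finset V → ZMod 2 :=
  fun s => if ∃ v ∈ A, s = {v} then 1 else 0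

lemma vind_singleton (A : Finset V) (v : V) : vind A {v} = if v ∈ A then 1 else 0 := by
  unfold vind
  by_cases h : v ∈ A
  · rw [if_pos h, if_pos ⟨v, h, rfl⟩]
  · rw [if_neg h, if_neg]
    rintro ⟨w, hw, hvw⟩
    rw [Finset.singleton_inj] at hvw
    exact h (hvw ▸ hw)

lemma far_apart {X : AbstractSimplicialComplex V} {G : Finset V → Finset V → ZMod 2}
    (hG : ∀ u : Finset V → ZMod 2, ∃ c : ZMod 2, ∀ v : V,
        u {v} + lin (F X 1) (cob 0 u) G {v} = c)
    (x0 y : V) (r : ℕ) (hy : y ∉ vBall X x0 r) :
    r + 1 ≤ (Eset X G x0).card + (Eset X G y).card := by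
  have hcut : ∀ r' ∈ Finset.range (r + 1), ∃ e ∈ Eset X G x0 ∪ Eset X G y,
      cob 0 (vind (vBall X x0 r')) e ≠ 0 := by
    intro r' hr'
    rw [Finset.mem_range] at hr'
    set u := vind (vBall X x0 r') with hu
    obtain ⟨c, hc⟩ := hG u
    have h1 := hc x0
    have h2 := hc y
    have hux : u {x0} = 1 := by
      rw [hu, vind_singleton, if_pos (base_mem_vBall X x0 r')]
    have huy : u {y} = 0 := by
      rw [hu, vind_singleton, if_neg (fun h => hy (vBall_mono X x0 (by omega) h))]
    rw [hux] at h1
    rw [huy, zero_add] at h2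
    by_contra hcon
    push_neg at hcon
    have hz : ∀ v, v = x0 ∨ v = y → lin (F X 1) (cob 0 u) G {v} = 0 := by
      intro v hv
      unfold lin
      apply Finset.sum_eq_zero
      intro e he
      by_cases hGe : G e {v} = 0
      · rw [hGe, mul_zero]
      · have hmem : e ∈ Eset X G x0 ∪ Eset X G y := by
          rw [Finset.mem_union]
          rcases hv with rfl | rfl
          · exact Or.inl (Finset.mem_filter.mpr ⟨he, hGe⟩)
          · exact Or.inr (Finset.mem_filter.mpr ⟨he, hGe⟩)
        rw [hcon e hmem, zero_mul]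
    rw [hz x0 (Or.inl rfl)] at h1
    rw [hz y (Or.inr rfl)] at h2
    rw [← h2] at h1
    exact absurd h1 (by decide)
  choose! ε hε1 hε2 using hcut
  have hinj : Set.InjOn ε (Finset.range (r + 1) : Set ℕ) := by
    have hlt : ∀ r' ∈ Finset.range (r + 1), ∀ r'', r' < r'' →
        cob 0 (vind (vBall X x0 r'')) (ε r') = 0 := by
      intro r' hr' r'' hlt
      have hmem := hε1 r' hr'
      have heF : ε r' ∈ F X 1 := by
        rw [Finset.mem_union] at hmem
        rcases hmem with h | h
        · exact (Finset.mem_filter.mp h).1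
        · exact (Finset.mem_filter.mp h).1
      obtain ⟨a, b, hab, heq⟩ := Finset.card_eq_two.mp (mem_F.mp heF).2
      have hne := hε2 r' hr'
      rw [heq] at hne heF ⊢
      rw [cob_zero_apply, Finset.sum_pair hab, vind_singleton, vind_singleton] at hne ⊢
      have hboth : a ∈ vBall X x0 (r' + 1) ∧ b ∈ vBall X x0 (r' + 1) := by
        by_cases ha : a ∈ vBall X x0 r'
        · refine ⟨vBall_subset_succ X x0 r' ha, ?_⟩
          simp only [vBall, Finset.mem_union, Finset.mem_filter, Finset.mem_univ, true_and]
          exact Or.inr ⟨a, ha, heF⟩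
        · by_cases hb : b ∈ vBall X x0 r'
          · refine ⟨?_, vBall_subset_succ X x0 r' hb⟩
            simp only [vBall, Finset.mem_union, Finset.mem_filter, Finset.mem_univ, true_and]
            refine Or.inr ⟨b, hb, ?_⟩
            rw [Finset.pair_comm]; exact heF
          · rw [if_neg ha, if_neg hb] at hne
            exact absurd (add_zero _) hne
      rw [if_pos (vBall_mono X x0 hlt hboth.1), if_pos (vBall_mono X x0 hlt hboth.2)]
      decide
    intro r' hr' r'' hr'' heq
    by_contra hne'
    rcases Nat.lt_or_gt_of_ne hne' with h | h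
    · have h1 := hlt r' hr' r'' h
      rw [heq] at h1
      exact hε2 r'' hr'' h1
    · have h1 := hlt r'' hr'' r' h
      rw [← heq] at h1
      exact hε2 r' hr' h1
  calc r + 1 = (Finset.range (r + 1)).card := (Finset.card_range _).symm
    _ ≤ (Eset X G x0 ∪ Eset X G y).card :=
        Finset.card_le_card_of_injOn ε (fun r' hr' => hε1 r' hr') hinj
    _ ≤ _ := Finset.card_union_le _ _

end Vale.Agent.P067
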