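import Vale.Agent.P067.Chain

namespace Vale.Agent.P067

open Finset
open scoped Classical

set_option linter.unusedSectionVars false

variable {V : Type} [Fintype V]

/-- One step of the construction: the obstruction chain is a cycle carried by `KK σ`. -/
lemma cone_step (d : ℕ) (Fc : Set (Finset V)) (hFc : DownClosed Fc)
    (KK : Finset V → Set (Finset V))
    (hmono : ∀ σ ρ, ρ ⊆ σ → KK ρ ⊆ KK σ)
    (hself : ∀ σ ∈ Fc, σ ∈ KK σ)
    (hacyc : ∀ σ ∈ Fc, AcycUpTo (KK σ) d)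
    (c : Finset V → Finset V → ZMod 2) (σ : Finset V) (hσ : σ ∈ Fc) (hd : σ.card ≤ d)
    (ih : ∀ ρ ∈ Fc, ρ.card < σ.card → ρ.card ≤ d →
      SuppIn (KK ρ) (ρ.card + 1) (c ρ) ∧ bd (c ρ) = ind ρ + ∑ x ∈ ρ, c (ρ.erase x)) :
    ∃ w, SuppIn (KK σ) (σ.card + 1) w ∧ bd w = ind σ + ∑ x ∈ σ, c (σ.erase x) := by
  have herase : ∀ x ∈ σ, σ.erase x ∈ Fc ∧ (σ.erase x).card + 1 = σ.card := by
    intro x hx
    refine ⟨hFc σ hσ _ (Finset.erase_subset x σ), ?_⟩
    rw [Finset.card_erase_of_mem hx]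
    have : 0 < σ.card := Finset.card_pos.mpr ⟨x, hx⟩
    omega
  have ih' : ∀ x ∈ σ, SuppIn (KK (σ.erase x)) ((σ.erase x).card + 1) (c (σ.erase x)) ∧
      bd (c (σ.erase x)) = ind (σ.erase x) + ∑ y ∈ σ.erase x, c ((σ.erase x).erase y) := by
    intro x hx
    obtain ⟨h1, h2⟩ := herase x hx
    exact ih _ h1 (by omega) (by omega)
  apply hacyc σ hσ σ.card hd
  · apply suppIn_add
    · intro τ hτ
      unfold ind at hτ
      by_cases h : τ = σ
      · rw [h]
        exact ⟨hself σ hσ, rfl⟩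
      · rw [if_neg h] at hτ
        exact absurd rfl hτ
    · apply suppIn_sum
      intro x hx
      have h1 := (ih' x hx).1
      rw [(herase x hx).2] at h1
      exact h1.mono (hmono σ _ (Finset.erase_subset x σ))
  · rw [bd_add, bd_ind, bd_sum, Finset.sum_congr rfl (fun x hx => (ih' x hx).2),
      Finset.sum_add_distrib, ← add_assoc]
    funext ρ
    simp only [Pi.add_apply, Pi.zero_apply, zmod2_add_self, zero_add]
    rw [Finset.sum_apply]
    simp only [Finset.sum_apply]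
    apply sum_symm_offDiag σ (fun x y => c ((σ.erase x).erase y) ρ)
    intro x y
    rw [Finset.erase_right_comm]

/-- Acyclic carriers: a monotone family of acyclic carriers supports a chain contraction. -/
theorem exists_cones (d : ℕ) (Fc : Set (Finset V)) (hFc : DownClosed Fc)
    (KK : Finset V → Set (Finset V))
    (hdown : ∀ σ, DownClosed (KK σ))
    (hmono : ∀ σ ρ, ρ ⊆ σ → KK ρ ⊆ KK σ)
    (hself : ∀ σ ∈ Fc, σ ∈ KK σ)
    (hacyc : ∀ σ ∈ Fc, AcycUpTo (KK σ) d) :
    ∃ c : Finset V → Finset V → ZMod 2, ∀ σ ∈ Fc, σ.card ≤ d →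
      SuppIn (KK σ) (σ.card + 1) (c σ) ∧ bd (c σ) = ind σ + ∑ x ∈ σ, c (σ.erase x) := by
  have key : ∀ n : ℕ, ∃ c : Finset V → Finset V → ZMod 2, ∀ σ ∈ Fc, σ.card < n → σ.card ≤ d →
      SuppIn (KK σ) (σ.card + 1) (c σ) ∧ bd (c σ) = ind σ + ∑ x ∈ σ, c (σ.erase x) := by
    intro n
    induction n with
    | zero =>
      exact ⟨fun _ => 0, fun σ _ h => absurd h (Nat.not_lt_zero _)⟩
    | succ n ih =>
      obtain ⟨c, hc⟩ := ih
      have hex : ∀ σ : Finset V, σ ∈ Fc ∧ σ.card = n ∧ σ.card ≤ d →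
          ∃ w, SuppIn (KK σ) (σ.card + 1) w ∧ bd w = ind σ + ∑ x ∈ σ, c (σ.erase x) := by
        rintro σ ⟨hσ, hn, hd⟩
        exact cone_step d Fc hFc KK hmono hself hacyc c σ hσ hd
          (fun ρ hρ hlt hρd => hc ρ hρ (by omega) hρd)
      refine ⟨fun σ => if h : σ ∈ Fc ∧ σ.card = n ∧ σ.card ≤ d then Classical.choose (hex σ h)
        else c σ, ?_⟩
      intro σ hσ hlt hd
      have hsum : ∀ x ∈ σ, (if h : σ.erase x ∈ Fc ∧ (σ.erase x).card = n ∧ (σ.erase x).card ≤ d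
          then Classical.choose (hex (σ.erase x) h) else c (σ.erase x)) = c (σ.erase x) := by
        intro x hx
        rw [dif_neg]
        rintro ⟨-, h2, -⟩
        rw [Finset.card_erase_of_mem hx] at h2
        have : 0 < σ.card := Finset.card_pos.mpr ⟨x, hx⟩
        omega
      beta_reduce
      rw [Finset.sum_congr rfl hsum]
      by_cases h : σ ∈ Fc ∧ σ.card = n ∧ σ.card ≤ d
      · rw [dif_pos h]
        exact Classical.choose_spec (hex σ h)
      · rw [dif_neg h]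
        have hlt' : σ.card < n := by
          by_contra hcon
          exact h ⟨hσ, by omega, hd⟩
        exact hc σ hσ hlt' hd
  obtain ⟨c, hc⟩ := key (d + 1)
  exact ⟨c, fun σ hσ hd => hc σ hσ (by omega) hd⟩

end Vale.Agent.P067
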