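import Vale.Agent.P067.Chain

/-!
# The barycentric subdivision of the `d`-skeleton of a product of `k` simplices on `m` vertices

A cell of the product of `k` copies of the full simplex on `Fin m` is a product of nonempty subsets
of `Fin m`; we encode it as a subset `B` of `Fin k × Fin m` meeting every column `{j} × Fin m`
(`Adm B`).  Its dimension is `B.card - k`.  The vertices of the complex `cplx k m d` are the cells
of dimension at most `d`, and its faces are the nonempty chains of cells.
-/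

namespace Vale.Agent.P067

open Finset
open scoped Classical

set_option linter.unusedSectionVars false

/-- The index set: `k` columns with `m` entries each. -/
abbrev Lam (k m : ℕ) : Type := Fin k × Fin m

/-- A set of entries is admissible if it meets every column. -/
def Adm {k m : ℕ} (B : Finset (Lam k m)) : Prop := ∀ j : Fin k, ∃ a : Fin m, (j, a) ∈ B

/-- The cells of dimension at most `d` of the product of `k` simplices with `m` vertices each. -/
def Cell (k m d : ℕ) : Type := {B : Finset (Lam k m) // Adm B ∧ B.card ≤ k + d}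

noncomputable instance (k m d : ℕ) : Fintype (Cell k m d) := by
  unfold Cell
  infer_instance

variable {k m d : ℕ}

/-- A set of cells is a chain if its members are pairwise comparable. -/
def IsCh (σ : Finset (Cell k m d)) : Prop :=
  ∀ B ∈ σ, ∀ B' ∈ σ, B.1 ⊆ B'.1 ∨ B'.1 ⊆ B.1

lemma IsCh.subset {σ ρ : Finset (Cell k m d)} (h : IsCh σ) (hρ : ρ ⊆ σ) : IsCh ρ :=
  fun B hB B' hB' => h B (hρ hB) B' (hρ hB')

/-- The order complex of the poset of cells of dimension at most `d`. -/
def cplx (k m d : ℕ) : AbstractSimplicialComplex (Cell k m d) where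
  faces := {σ | σ.Nonempty ∧ IsCh σ}
  isRelLowerSet_faces := fun {_} hs => ⟨hs.1, fun _ hts ht => ⟨ht, hs.2.subset hts⟩⟩
  singleton_mem := fun B => ⟨Finset.singleton_nonempty B, fun B₁ h₁ B₂ h₂ => by
    rw [Finset.mem_singleton] at h₁ h₂
    rw [h₁, h₂]
    exact Or.inl (Finset.Subset.refl _)⟩

lemma mem_cplx {σ : Finset (Cell k m d)} : σ ∈ (cplx k m d).faces ↔ σ.Nonempty ∧ IsCh σ :=
  Iff.rfl

/-- The union of the cells of a set of cells (for a nonempty chain: its largest cell). -/
noncomputable def U (σ : Finset (Cell k m d)) : Finset (Lam k m) := σ.biUnion (fun B => B.1)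

lemma U_mono {σ ρ : Finset (Cell k m d)} (h : ρ ⊆ σ) : U ρ ⊆ U σ :=
  Finset.biUnion_subset_biUnion_of_subset_left _ h

lemma subset_U {σ : Finset (Cell k m d)} {B : Cell k m d} (h : B ∈ σ) : B.1 ⊆ U σ :=
  Finset.subset_biUnion_of_mem (fun B : Cell k m d => B.1) h

lemma U_subset_iff {σ : Finset (Cell k m d)} {E : Finset (Lam k m)} :
    U σ ⊆ E ↔ ∀ B ∈ σ, B.1 ⊆ E :=
  Finset.biUnion_subset

/-- The chains (including the empty one) all of whose cells lie in `E`. -/
def O (d : ℕ) (E : Finset (Lam k m)) : Set (Finset (Cell k m d)) :=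
  {σ | IsCh σ ∧ ∀ B ∈ σ, B.1 ⊆ E}

lemma mem_O {E : Finset (Lam k m)} {σ : Finset (Cell k m d)} :
    σ ∈ O d E ↔ IsCh σ ∧ ∀ B ∈ σ, B.1 ⊆ E := Iff.rfl

lemma O_down (E : Finset (Lam k m)) : DownClosed (O d E : Set (Finset (Cell k m d))) :=
  fun _ hσ _ hρ => ⟨hσ.1.subset hρ, fun B hB => hσ.2 B (hρ hB)⟩

lemma O_mono {E E' : Finset (Lam k m)} (h : E ⊆ E') :
    (O d E : Set (Finset (Cell k m d))) ⊆ O d E' :=
  fun _ hσ => ⟨hσ.1, fun B hB => (hσ.2 B hB).trans h⟩

lemma empty_mem_O (E : Finset (Lam k m)) : (∅ : Finset (Cell k m d)) ∈ O d E :=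
  ⟨fun _ h => absurd h (Finset.notMem_empty _), fun _ h => absurd h (Finset.notMem_empty _)⟩

lemma O_inter (E E' : Finset (Lam k m)) :
    (O d E : Set (Finset (Cell k m d))) ∩ O d E' = O d (E ∩ E') := by
  ext σ
  constructor
  · rintro ⟨h1, h2⟩
    exact ⟨h1.1, fun B hB => Finset.subset_inter (h1.2 B hB) (h2.2 B hB)⟩
  · intro h
    exact ⟨⟨h.1, fun B hB => (h.2 B hB).trans Finset.inter_subset_left⟩,
      ⟨h.1, fun B hB => (h.2 B hB).trans Finset.inter_subset_right⟩⟩

lemma Adm.mono {B B' : Finset (Lam k m)} (h : Adm B) (hBB : B ⊆ B') : Adm B' :=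
  fun j => let ⟨a, ha⟩ := h j; ⟨a, hBB ha⟩

/-- The graph of a function `Fin k → Fin m`: a vertex of the product of simplices. -/
noncomputable def gr (v : Fin k → Fin m) : Finset (Lam k m) :=
  Finset.univ.image (fun j => (j, v j))

lemma mem_gr {v : Fin k → Fin m} {p : Lam k m} : p ∈ gr v ↔ v p.1 = p.2 := by
  unfold gr
  rw [Finset.mem_image]
  constructor
  · rintro ⟨j, _, rfl⟩
    rfl
  · intro h
    exact ⟨p.1, Finset.mem_univ _, by rw [h]⟩

lemma adm_gr (v : Fin k → Fin m) : Adm (gr v) :=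
  fun j => ⟨v j, mem_gr.mpr rfl⟩

lemma card_gr (v : Fin k → Fin m) : (gr v).card = k := by
  unfold gr
  rw [Finset.card_image_of_injective _ (fun a b h => (Prod.mk.inj h).1), Finset.card_univ,
    Fintype.card_fin]

end Vale.Agent.P067
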