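import Vale.Agent.P067.Basic

namespace Vale.Agent.P067

open Finset
open scoped Classical

set_option linter.unusedSectionVars false

variable {V : Type} [Fintype V]

/-- Boundary of a chain with coefficients in `ZMod 2` (chains are functions on finite sets). -/
noncomputable def bd (z : Finset V → ZMod 2) : Finset V → ZMod 2 :=
  fun ρ => ∑ x ∈ ρᶜ, z (insert x ρ)

/-- `z` is supported on members of `K` with exactly `j` elements. -/
def SuppIn (K : Set (Finset V)) (j : ℕ) (z : Finset V → ZMod 2) : Prop :=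
  ∀ σ, z σ ≠ 0 → σ ∈ K ∧ σ.card = j

/-- Every cycle supported on sets of at most `n` elements of `K` is a boundary in `K`. -/
def AcycUpTo (K : Set (Finset V)) (n : ℕ) : Prop :=
  ∀ j ≤ n, ∀ z, SuppIn K j z → bd z = 0 → ∃ w, SuppIn K (j + 1) w ∧ bd w = z

def DownClosed (K : Set (Finset V)) : Prop :=
  ∀ σ ∈ K, ∀ ρ, ρ ⊆ σ → ρ ∈ K

lemma bd_add (z w : Finset V → ZMod 2) : bd (z + w) = bd z + bd w := by
  funext ρ
  simp [bd, Finset.sum_add_distrib]

lemma bd_zero : bd (0 : Finset V → ZMod 2) = 0 := by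
  funext ρ
  simp [bd]

lemma bd_sum {ι : Type} (s : Finset ι) (f : ι → Finset V → ZMod 2) :
    bd (∑ i ∈ s, f i) = ∑ i ∈ s, bd (f i) := by
  induction s using Finset.induction_on with
  | empty => simp [bd_zero]
  | insert a s ha ih => rw [Finset.sum_insert ha, Finset.sum_insert ha, bd_add, ih]

/-- A symmetric function summed over ordered pairs of distinct elements vanishes mod 2. -/
lemma sum_symm_offDiag {α : Type} (s : Finset α) (g : α → α → ZMod 2)
    (hg : ∀ x y, g x y = g y x) : ∑ x ∈ s, ∑ y ∈ s.erase x, g x y = 0 := by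
  have h1 : ∑ x ∈ s, ∑ y ∈ s.erase x, g x y = ∑ p ∈ s.offDiag, g p.1 p.2 := by
    rw [Finset.sum_sigma']
    apply Finset.sum_bij' (fun (p : (_ : α) × α) _ => ((p.1, p.2) : α × α))
      (fun (p : α × α) _ => (⟨p.1, p.2⟩ : (_ : α) × α))
    · rintro ⟨x, y⟩ h
      simp only [Finset.mem_sigma, Finset.mem_erase] at h
      simp only [Finset.mem_offDiag]
      exact ⟨h.1, h.2.2, h.2.1.symm⟩
    · rintro ⟨x, y⟩ h
      simp only [Finset.mem_offDiag] at h
      simp only [Finset.mem_sigma, Finset.mem_erase]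
      exact ⟨h.1, h.2.2.symm, h.2.1⟩
    · rintro ⟨x, y⟩ _; rfl
    · rintro ⟨x, y⟩ _; rfl
    · rintro ⟨x, y⟩ _; rfl
  rw [h1]
  apply Finset.sum_involution (fun p _ => p.swap)
  · rintro ⟨x, y⟩ _
    simp only [Prod.swap_prod_mk]
    rw [hg y x, zmod2_add_self]
  · rintro ⟨x, y⟩ h _ heq
    simp only [Finset.mem_offDiag] at h
    simp only [Prod.swap_prod_mk, Prod.mk.injEq] at heq
    exact h.2.2 heq.1.symm
  · rintro ⟨x, y⟩ _
    rfl
  · rintro ⟨x, y⟩ h
    simp only [Finset.mem_offDiag] at h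
    simp only [Prod.swap_prod_mk, Finset.mem_offDiag]
    exact ⟨h.2.1, h.1, h.2.2.symm⟩

lemma bd_bd (z : Finset V → ZMod 2) : bd (bd z) = 0 := by
  funext ρ
  unfold bd
  have h : ∀ x ∈ ρᶜ, ∑ y ∈ (insert x ρ)ᶜ, z (insert y (insert x ρ))
      = ∑ y ∈ (ρᶜ).erase x, z (insert y (insert x ρ)) := by
    intro x _
    apply Finset.sum_congr _ (fun _ _ => rfl)
    ext y
    simp only [Finset.mem_compl, Finset.mem_insert, Finset.mem_erase, not_or]
  rw [Finset.sum_congr rfl h]
  apply sum_symm_offDiag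
  intro x y
  rw [Finset.insert_comm]

lemma suppIn_bd {K : Set (Finset V)} (hK : DownClosed K) {j : ℕ} {z : Finset V → ZMod 2}
    (hz : SuppIn K (j + 1) z) : SuppIn K j (bd z) := by
  intro ρ hρ
  unfold bd at hρ
  obtain ⟨x, hx, hne⟩ := Finset.exists_ne_zero_of_sum_ne_zero hρ
  obtain ⟨h1, h2⟩ := hz _ hne
  refine ⟨hK _ h1 _ (Finset.subset_insert x ρ), ?_⟩
  rw [Finset.card_insert_of_notMem (Finset.mem_compl.mp hx)] at h2
  omega

lemma suppIn_add {K : Set (Finset V)} {j : ℕ} {z w : Finset V → ZMod 2}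
    (hz : SuppIn K j z) (hw : SuppIn K j w) : SuppIn K j (z + w) := by
  intro σ hσ
  by_cases h : z σ = 0
  · apply hw
    intro h'
    apply hσ
    rw [Pi.add_apply, h, h', add_zero]
  · exact hz σ h

lemma suppIn_zero (K : Set (Finset V)) (j : ℕ) : SuppIn K j 0 := by
  intro σ hσ
  exact absurd rfl hσ

lemma suppIn_sum {K : Set (Finset V)} {j : ℕ} {ι : Type} (s : Finset ι)
    (f : ι → Finset V → ZMod 2) (h : ∀ i ∈ s, SuppIn K j (f i)) : SuppIn K j (∑ i ∈ s, f i) := by
  induction s using Finset.induction_on with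
  | empty => simpa using suppIn_zero K j
  | insert a s ha ih =>
    rw [Finset.sum_insert ha]
    exact suppIn_add (h a (Finset.mem_insert_self a s))
      (ih (fun i hi => h i (Finset.mem_insert_of_mem hi)))

lemma SuppIn.mono {K K' : Set (Finset V)} (hKK : K ⊆ K') {j : ℕ} {z : Finset V → ZMod 2}
    (hz : SuppIn K j z) : SuppIn K' j z :=
  fun σ hσ => ⟨hKK (hz σ hσ).1, (hz σ hσ).2⟩

lemma AcycUpTo.mono {K : Set (Finset V)} {n n' : ℕ} (h : AcycUpTo K n) (hn : n' ≤ n) :
    AcycUpTo K n' :=
  fun j hj => h j (le_trans hj hn)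

/-- A family with a cone point is acyclic. -/
lemma acyc_of_cone {K : Set (Finset V)} (a : V) (ha : ∀ σ ∈ K, insert a σ ∈ K) (n : ℕ) :
    AcycUpTo K n := by
  intro j _ z hz hbd
  refine ⟨fun σ => if a ∈ σ then z (σ.erase a) else 0, ?_, ?_⟩
  · intro σ hσ
    by_cases h : a ∈ σ
    · simp only [h, if_true] at hσ
      obtain ⟨h1, h2⟩ := hz _ hσ
      constructor
      · have := ha _ h1
        rwa [Finset.insert_erase h] at this
      · rw [Finset.card_erase_of_mem h] at h2
        have : 0 < σ.card := Finset.card_pos.mpr ⟨a, h⟩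
        omega
    · simp only [h, if_false] at hσ
      exact absurd rfl hσ
  · funext ρ
    unfold bd
    by_cases h : a ∈ ρ
    · have h1 : ∀ x ∈ ρᶜ, (if a ∈ insert x ρ then z ((insert x ρ).erase a) else 0)
          = z (insert x (ρ.erase a)) := by
        intro x hx
        rw [if_pos (Finset.mem_insert_of_mem h)]
        have hxa : x ≠ a := by
          rintro rfl
          exact (Finset.mem_compl.mp hx) h
        rw [Finset.erase_insert_of_ne hxa]
      rw [Finset.sum_congr rfl h1]
      have h2 : bd z (ρ.erase a) = 0 := by rw [hbd]; rfl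
      unfold bd at h2
      have h3 : (ρ.erase a)ᶜ = insert a ρᶜ := by
        ext y
        simp only [Finset.mem_compl, Finset.mem_erase, Finset.mem_insert, not_and]
        constructor
        · intro hy
          by_cases hya : y = a
          · exact Or.inl hya
          · exact Or.inr (hy hya)
        · rintro (rfl | hy) hne
          · exact absurd rfl hne
          · exact hy
      rw [h3, Finset.sum_insert (by simpa using h), Finset.insert_erase h] at h2
      have h4 := congrArg (fun t => z ρ + t) h2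
      simp only [add_zero] at h4
      rw [← add_assoc, zmod2_add_self, zero_add] at h4
      exact h4
    · rw [Finset.sum_eq_single a]
      · beta_reduce
        rw [if_pos (Finset.mem_insert_self a ρ), Finset.erase_insert h]
      · intro x _ hxa
        beta_reduce
        rw [if_neg]
        rw [Finset.mem_insert, not_or]
        exact ⟨fun h' => hxa h'.symm, h⟩
      · intro h'
        exact absurd (Finset.mem_compl.mpr h) h'

/-- Mayer-Vietoris. -/
lemma acyc_union {K₁ K₂ : Set (Finset V)} (h₁ : DownClosed K₁) (h₂ : DownClosed K₂) {n : ℕ}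
    (a₁ : AcycUpTo K₁ n) (a₂ : AcycUpTo K₂ n) (he : (∅ : Finset V) ∈ K₁)
    (a₁₂ : ∀ n', n' + 1 = n → AcycUpTo (K₁ ∩ K₂) n') : AcycUpTo (K₁ ∪ K₂) n := by
  intro j hj z hz hbd
  cases j with
  | zero =>
    have hz1 : SuppIn K₁ 0 z := by
      intro σ hσ
      have := (hz σ hσ).2
      rw [Finset.card_eq_zero] at this
      rw [this]
      exact ⟨he, rfl⟩
    obtain ⟨w, hw, hbw⟩ := a₁ 0 (Nat.zero_le n) z hz1 hbd
    exact ⟨w, hw.mono Set.subset_union_left, hbw⟩
  | succ j =>
    obtain ⟨n', hn'⟩ : ∃ n', n' + 1 = n := ⟨n - 1, by omega⟩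
    set z₁ : Finset V → ZMod 2 := fun σ => if σ ∈ K₁ then z σ else 0 with hz₁
    set z₂ : Finset V → ZMod 2 := fun σ => if σ ∈ K₁ then 0 else z σ with hz₂
    have hsum : z₁ + z₂ = z := by
      funext σ
      simp only [hz₁, hz₂, Pi.add_apply]
      split_ifs <;> simp
    have hs1 : SuppIn K₁ (j + 1) z₁ := by
      intro σ hσ
      simp only [hz₁] at hσ
      by_cases h : σ ∈ K₁
      · rw [if_pos h] at hσ
        exact ⟨h, (hz σ hσ).2⟩
      · rw [if_neg h] at hσ
        exact absurd rfl hσ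
    have hs2 : SuppIn K₂ (j + 1) z₂ := by
      intro σ hσ
      simp only [hz₂] at hσ
      by_cases h : σ ∈ K₁
      · rw [if_pos h] at hσ
        exact absurd rfl hσ
      · rw [if_neg h] at hσ
        obtain ⟨h1, h2⟩ := hz σ hσ
        rcases h1 with h1 | h1
        · exact absurd h1 h
        · exact ⟨h1, h2⟩
    have hbeq : bd z₁ = bd z₂ := by
      have : bd z₁ + bd z₂ = 0 := by rw [← bd_add, hsum, hbd]
      funext ρ
      have h := congrFun this ρ
      simp only [Pi.add_apply, Pi.zero_apply] at h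
      have h' := congrArg (fun t => t + bd z₂ ρ) h
      simp only [zero_add] at h'
      rw [add_assoc, zmod2_add_self, add_zero] at h'
      exact h'
    have hy : SuppIn (K₁ ∩ K₂) j (bd z₁) := by
      intro ρ hρ
      have h1 := suppIn_bd h₁ hs1 ρ hρ
      have h2 := suppIn_bd h₂ hs2 ρ (by rw [← hbeq]; exact hρ)
      exact ⟨⟨h1.1, h2.1⟩, h1.2⟩
    obtain ⟨u, hu, hbu⟩ := a₁₂ n' hn' j (by omega) (bd z₁) hy (bd_bd z₁)
    have hu1 : SuppIn K₁ (j + 1) u := hu.mono Set.inter_subset_left
    have hu2 : SuppIn K₂ (j + 1) u := hu.mono Set.inter_subset_right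
    have hc1 : bd (z₁ + u) = 0 := by
      rw [bd_add, hbu]
      funext ρ
      simp [zmod2_add_self]
    have hc2 : bd (z₂ + u) = 0 := by
      rw [bd_add, hbu, hbeq]
      funext ρ
      simp [zmod2_add_self]
    obtain ⟨w₁, hw1, hbw1⟩ := a₁ (j + 1) hj _ (suppIn_add hs1 hu1) hc1
    obtain ⟨w₂, hw2, hbw2⟩ := a₂ (j + 1) hj _ (suppIn_add hs2 hu2) hc2
    refine ⟨w₁ + w₂, suppIn_add (hw1.mono Set.subset_union_left)
      (hw2.mono Set.subset_union_right), ?_⟩
    rw [bd_add, hbw1, hbw2, ← hsum]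
    funext ρ
    simp only [Pi.add_apply]
    have := zmod2_add_self (u ρ)
    calc z₁ ρ + u ρ + (z₂ ρ + u ρ) = z₁ ρ + z₂ ρ + (u ρ + u ρ) := by ring
      _ = z₁ ρ + z₂ ρ := by rw [this, add_zero]

/-- Subsets with one element less are the erasures. -/
lemma sum_powersetCard_erase {σ : Finset V} {j : ℕ} (hσ : σ.card = j + 1)
    (g : Finset V → ZMod 2) : ∑ ρ ∈ σ.powersetCard j, g ρ = ∑ x ∈ σ, g (σ.erase x) := by
  symm
  apply Finset.sum_bij (fun x _ => σ.erase x)
  · intro x hx
    rw [Finset.mem_powersetCard]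
    refine ⟨Finset.erase_subset x σ, ?_⟩
    rw [Finset.card_erase_of_mem hx]; omega
  · intro x hx y hy hxy
    by_contra hne
    have : x ∈ σ.erase y := Finset.mem_erase.mpr ⟨hne, hx⟩
    rw [← hxy] at this
    exact (Finset.notMem_erase x σ) this
  · intro ρ hρ
    rw [Finset.mem_powersetCard] at hρ
    have hc : (σ \ ρ).card = 1 := by
      rw [Finset.card_sdiff_of_subset hρ.1]; omega
    obtain ⟨x, hx⟩ := Finset.card_eq_one.mp hc
    have hxm : x ∈ σ \ ρ := by rw [hx]; exact Finset.mem_singleton_self x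
    rw [Finset.mem_sdiff] at hxm
    refine ⟨x, hxm.1, ?_⟩
    ext y
    rw [Finset.mem_erase]
    constructor
    · rintro ⟨hyx, hy⟩
      by_contra hyρ
      have : y ∈ σ \ ρ := Finset.mem_sdiff.mpr ⟨hy, hyρ⟩
      rw [hx, Finset.mem_singleton] at this
      exact hyx this
    · intro hy
      refine ⟨?_, hρ.1 hy⟩
      rintro rfl
      exact hxm.2 hy
  · intro x _
    rfl

lemma cob_eq_sum_erase (i : ℕ) (f : Finset V → ZMod 2) {τ : Finset V} (hτ : τ.card = i + 2) :
    cob i f τ = ∑ x ∈ τ, f (τ.erase x) := by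
  unfold cob
  exact sum_powersetCard_erase hτ f

lemma bd_ind (σ : Finset V) : bd (ind σ) = ∑ x ∈ σ, ind (σ.erase x) := by
  funext ρ
  rw [Finset.sum_apply]
  unfold bd ind
  by_cases h : ∃ x ∈ σ, ρ = σ.erase x
  · obtain ⟨x, hx, rfl⟩ := h
    rw [Finset.sum_eq_single x, Finset.sum_eq_single x]
    · rw [Finset.insert_erase hx]
      simp
    · intro y hy hyx
      rw [if_neg]
      intro heq
      have : y ∈ σ.erase x := Finset.mem_erase.mpr ⟨hyx, hy⟩
      rw [heq] at this
      exact (Finset.notMem_erase y σ) this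
    · intro h'
      exact absurd hx h'
    · intro y hy hyx
      rw [if_neg]
      intro heq
      have hyσ : y ∈ σ := by rw [← heq]; exact Finset.mem_insert_self _ _
      have : y ∈ σ.erase x := Finset.mem_erase.mpr ⟨hyx, hyσ⟩
      exact (Finset.mem_compl.mp hy) this
    · intro h'
      exact absurd (Finset.mem_compl.mpr (Finset.notMem_erase x σ)) h'
  · push_neg at h
    rw [Finset.sum_eq_zero, Finset.sum_eq_zero]
    · intro x hx
      rw [if_neg (h x hx)]
    · intro x hx
      rw [if_neg]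
      intro heq
      apply h x (by rw [← heq]; exact Finset.mem_insert_self _ _)
      rw [← heq, Finset.erase_insert (Finset.mem_compl.mp hx)]

/-- The pairing of a cochain with a chain. -/
noncomputable def pair (f c : Finset V → ZMod 2) : ZMod 2 := ∑ τ : Finset V, f τ * c τ

lemma pair_add (f c c' : Finset V → ZMod 2) : pair f (c + c') = pair f c + pair f c' := by
  unfold pair
  rw [← Finset.sum_add_distrib]
  apply Finset.sum_congr rfl
  intro τ _
  rw [Pi.add_apply, mul_add]

lemma pair_sum {ι : Type} (f : Finset V → ZMod 2) (s : Finset ι) (c : ι → Finset V → ZMod 2) :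
    pair f (∑ i ∈ s, c i) = ∑ i ∈ s, pair f (c i) := by
  induction s using Finset.induction_on with
  | empty => simp [pair]
  | insert a s ha ih => rw [Finset.sum_insert ha, Finset.sum_insert ha, pair_add, ih]

lemma pair_ind (f : Finset V → ZMod 2) (σ : Finset V) : pair f (ind σ) = f σ := by
  unfold pair ind
  rw [Finset.sum_eq_single σ]
  · simp
  · intro τ _ hne
    rw [if_neg hne, mul_zero]
  · intro h
    exact absurd (Finset.mem_univ σ) h

/-- Adjunction between coboundary and boundary. -/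
lemma pair_cob (i : ℕ) (f c : Finset V → ZMod 2) (hc : ∀ τ, c τ ≠ 0 → τ.card = i + 2) :
    pair (cob i f) c = pair f (bd c) := by
  unfold pair bd
  have h1 : ∀ τ ∈ (Finset.univ : Finset (Finset V)), cob i f τ * c τ
      = ∑ x ∈ τ, f (τ.erase x) * c τ := by
    intro τ _
    by_cases h : c τ = 0
    · simp [h]
    · rw [cob_eq_sum_erase i f (hc τ h), Finset.sum_mul]
  rw [Finset.sum_congr rfl h1]
  simp only [Finset.mul_sum]
  rw [Finset.sum_sigma', Finset.sum_sigma']
  apply Finset.sum_bij' (fun (p : (_ : Finset V) × V) _ => (⟨p.1.erase p.2, p.2⟩ : (_ : Finset V) × V))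
    (fun (p : (_ : Finset V) × V) _ => (⟨insert p.2 p.1, p.2⟩ : (_ : Finset V) × V))
  · rintro ⟨τ, x⟩ h
    simp only [Finset.mem_sigma, Finset.mem_univ, true_and] at h
    simp only [Finset.mem_sigma, Finset.mem_univ, true_and, Finset.mem_compl]
    exact Finset.notMem_erase x τ
  · rintro ⟨ρ, x⟩ h
    simp only [Finset.mem_sigma, Finset.mem_univ, true_and]
    exact Finset.mem_insert_self x ρ
  · rintro ⟨τ, x⟩ h
    simp only [Finset.mem_sigma, Finset.mem_univ, true_and] at h
    simp only [Finset.insert_erase h]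
  · rintro ⟨ρ, x⟩ h
    simp only [Finset.mem_sigma, Finset.mem_univ, true_and, Finset.mem_compl] at h
    simp only [Finset.erase_insert h]
  · rintro ⟨τ, x⟩ h
    simp only [Finset.mem_sigma, Finset.mem_univ, true_and] at h
    simp only [Finset.insert_erase h]

lemma exists_of_pair_ne_zero {f c : Finset V → ZMod 2} (h : pair f c ≠ 0) :
    ∃ τ, f τ ≠ 0 ∧ c τ ≠ 0 := by
  unfold pair at h
  obtain ⟨τ, _, hne⟩ := Finset.exists_ne_zero_of_sum_ne_zero h
  exact ⟨τ, left_ne_zero_of_mul hne, right_ne_zero_of_mul hne⟩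

end Vale.Agent.P067
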