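import Vale.Agent.P067.Chain

namespace Vale.Agent.P067

open Finset
open scoped Classical

set_option linter.unusedSectionVars false

variable {V : Type} [Fintype V]

/-- a weighted union bound -/
lemma sum_filter_le_double {α β : Type} (A : Finset α) (B : Finset β) (w : α → ℕ)
    (p : α → Prop) (r : α → β → Prop) [DecidablePred p] [∀ b, DecidablePred fun a => r a b]
    (h : ∀ a ∈ A, p a → ∃ b ∈ B, r a b) :
    ∑ a ∈ A.filter p, w a ≤ ∑ b ∈ B, ∑ a ∈ A.filter (fun a => r a b), w a := by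
  have h1 : ∀ a ∈ A.filter p, w a ≤ ∑ b ∈ B, if r a b then w a else 0 := by
    intro a ha
    obtain ⟨haA, hpa⟩ := Finset.mem_filter.1 ha
    obtain ⟨b, hb, hr⟩ := h a haA hpa
    have := Finset.single_le_sum (f := fun b => if r a b then w a else 0)
      (fun _ _ => Nat.zero_le _) hb
    simpa [hr] using this
  calc ∑ a ∈ A.filter p, w a ≤ ∑ a ∈ A.filter p, ∑ b ∈ B, if r a b then w a else 0 :=
        Finset.sum_le_sum h1
    _ ≤ ∑ a ∈ A, ∑ b ∈ B, if r a b then w a else 0 :=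
        Finset.sum_le_sum_of_subset (Finset.filter_subset _ _)
    _ = ∑ b ∈ B, ∑ a ∈ A, if r a b then w a else 0 := Finset.sum_comm
    _ = ∑ b ∈ B, ∑ a ∈ A.filter (fun a => r a b), w a := by
        refine Finset.sum_congr rfl fun b _ => ?_
        rw [Finset.sum_filter]

/-- arithmetic at the end of the cone criterion -/
lemma cone_arith (d i K m1 m2 n : ℕ) (hi : i < d) (hK : 0 < K) (h : m1 ≤ K * m2) :
    1 / ((K : ℝ) * 2 ^ (d + 1)) * ((m1 : ℝ) / (((d + 1).choose (i + 1) : ℝ) * (n : ℝ)))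
      ≤ (m2 : ℝ) / (((d + 1).choose (i + 1 + 1) : ℝ) * (n : ℝ)) := by
  rcases Nat.eq_zero_or_pos n with hn | hn
  · subst hn
    simp
  have hC1 : 0 < (d + 1).choose (i + 1) := Nat.choose_pos (by omega)
  have hC2 : 0 < (d + 1).choose (i + 1 + 1) := Nat.choose_pos (by omega)
  have hC2le : (d + 1).choose (i + 1 + 1) ≤ 2 ^ (d + 1) := Nat.choose_le_two_pow _ _
  have hnat : m1 * ((d + 1).choose (i + 1 + 1) * n)
      ≤ m2 * (K * 2 ^ (d + 1) * ((d + 1).choose (i + 1) * n)) := by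
    calc m1 * ((d + 1).choose (i + 1 + 1) * n)
        ≤ (K * m2) * (2 ^ (d + 1) * n) :=
          Nat.mul_le_mul h (Nat.mul_le_mul_right _ hC2le)
      _ = (K * m2) * (2 ^ (d + 1) * n) * 1 := by ring
      _ ≤ (K * m2) * (2 ^ (d + 1) * n) * (d + 1).choose (i + 1) :=
          Nat.mul_le_mul_left _ hC1
      _ = m2 * (K * 2 ^ (d + 1) * ((d + 1).choose (i + 1) * n)) := by ring
  have hK' : (0 : ℝ) < K := by exact_mod_cast hK
  have hn' : (0 : ℝ) < n := by exact_mod_cast hn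
  have hC1' : (0 : ℝ) < ((d + 1).choose (i + 1) : ℝ) := by exact_mod_cast hC1
  have hC2' : (0 : ℝ) < ((d + 1).choose (i + 1 + 1) : ℝ) := by exact_mod_cast hC2
  rw [div_mul_div_comm, one_mul, div_le_div_iff₀ (by positivity) (by positivity)]
  exact_mod_cast hnat

/-- Cone criterion for coboundary expansion (Gromov; Lubotzky-Meshulam-Mozes; Kozlov-Meshulam):
a family of chain contractions `c v` with small total load gives coboundary expansion. -/
theorem cobExp_of_cones (X : AbstractSimplicialComplex V) (d : ℕ) {ι : Type} [Fintype ι]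
    [Nonempty ι] (c : ι → Finset V → Finset V → ZMod 2) (K : ℕ) (hK : 0 < K)
    (hsupp : ∀ v σ, (σ = ∅ ∨ σ ∈ X.faces) → σ.card ≤ d →
      ∀ τ, c v σ τ ≠ 0 → τ ∈ X.faces ∧ τ.card = σ.card + 1)
    (hbd : ∀ v σ, (σ = ∅ ∨ σ ∈ X.faces) → σ.card ≤ d →
      bd (c v σ) = ind σ + ∑ x ∈ σ, c v (σ.erase x))
    (hload : ∀ i < d, ∀ τ ∈ F X (i + 1),
      ∑ v, ∑ σ ∈ (F X i).filter (fun σ => c v σ τ ≠ 0), deg X d σ
        ≤ K * Fintype.card ι * deg X d τ) :
    IsCobExp X d (1 / ((K : ℝ) * 2 ^ (d + 1))) := by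
  intro i hi f
  set g : ι → Finset V → ZMod 2 := fun v ρ => pair f (c v ρ) with hg
  set b : ι → Finset V → ZMod 2 := fun v σ => ∑ x ∈ σ, g v (σ.erase x) with hb
  have hcob : ∀ v, IsCobdry X i (b v) := by
    intro v
    cases i with
    | zero =>
      refine ⟨g v ∅, fun s hs => ?_⟩
      obtain ⟨u, rfl⟩ := Finset.card_eq_one.1 (mem_F.1 hs).2
      simp [hb]
    | succ j =>
      refine ⟨g v, fun s hs => ?_⟩
      rw [cob_eq_sum_erase j (g v) (mem_F.1 hs).2]
  have hkey : ∀ v, ∀ σ ∈ F X i, (f - b v) σ = pair (cob i f) (c v σ) := by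
    intro v σ hσ
    obtain ⟨hσf, hσc⟩ := mem_F.1 hσ
    have hle : σ.card ≤ d := by omega
    rw [pair_cob i f (c v σ) (fun τ hτ => by
      rw [(hsupp v σ (Or.inr hσf) hle τ hτ).2, hσc]), hbd v σ (Or.inr hσf) hle, pair_add,
      pair_ind, pair_sum, Pi.sub_apply, zmod2_sub_eq_add]
  have hmass : ∀ v, mass X d i (f - b v)
      ≤ ∑ τ ∈ (F X (i + 1)).filter (fun τ => cob i f τ ≠ 0),
          ∑ σ ∈ (F X i).filter (fun σ => c v σ τ ≠ 0), deg X d σ := by
    intro v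
    unfold mass
    refine sum_filter_le_double _ _ _ _ _ fun σ hσ hne => ?_
    rw [hkey v σ hσ] at hne
    obtain ⟨τ, h1, h2⟩ := exists_of_pair_ne_zero hne
    obtain ⟨hσf, hσc⟩ := mem_F.1 hσ
    have h3 := hsupp v σ (Or.inr hσf) (by omega) τ h2
    exact ⟨τ, Finset.mem_filter.2 ⟨mem_F.2 ⟨h3.1, by rw [h3.2, hσc]⟩, h1⟩, h2⟩
  have htotal : ∑ v, mass X d i (f - b v) ≤ ∑ _v : ι, K * mass X d (i + 1) (cob i f) := by
    calc ∑ v, mass X d i (f - b v)
        ≤ ∑ v, ∑ τ ∈ (F X (i + 1)).filter (fun τ => cob i f τ ≠ 0),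
            ∑ σ ∈ (F X i).filter (fun σ => c v σ τ ≠ 0), deg X d σ :=
          Finset.sum_le_sum fun v _ => hmass v
      _ = ∑ τ ∈ (F X (i + 1)).filter (fun τ => cob i f τ ≠ 0), ∑ v,
            ∑ σ ∈ (F X i).filter (fun σ => c v σ τ ≠ 0), deg X d σ := Finset.sum_comm
      _ ≤ ∑ τ ∈ (F X (i + 1)).filter (fun τ => cob i f τ ≠ 0),
            K * Fintype.card ι * deg X d τ :=
          Finset.sum_le_sum fun τ hτ => hload i hi τ (Finset.mem_filter.1 hτ).1
      _ = ∑ _v : ι, K * mass X d (i + 1) (cob i f) := by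
          rw [← Finset.mul_sum, Finset.sum_const, Finset.card_univ, smul_eq_mul]
          unfold mass
          ring
  obtain ⟨v, -, hv⟩ := Finset.exists_le_of_sum_le Finset.univ_nonempty htotal
  refine ⟨b v, hcob v, ?_⟩
  rw [nrm_eq, nrm_eq]
  exact cone_arith d i K _ _ _ hi hK hv

end Vale.Agent.P067
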