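import Vale.Agent.P067.Basic

namespace Vale.Agent.P067

open Finset
open scoped Classical

set_option linter.unusedSectionVars false

variable {V : Type} [Fintype V]

/-- the indicator cochain of the component of `v0` -/
noncomputable def compInd (X : AbstractSimplicialComplex V) (v0 : V) : Finset V → ZMod 2 :=
  fun s => if ∃ u, s = {u} ∧ (graph X).Reachable v0 u then 1 else 0

lemma compInd_singleton (X : AbstractSimplicialComplex V) (v0 u : V) :
    compInd X v0 {u} = if (graph X).Reachable v0 u then 1 else 0 := by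
  unfold compInd
  by_cases h : (graph X).Reachable v0 u
  · rw [if_pos h, if_pos ⟨u, rfl, h⟩]
  · rw [if_neg h, if_neg]
    rintro ⟨w, hw, hr⟩
    rw [Finset.singleton_inj] at hw
    subst hw
    exact h hr

lemma cob_compInd (X : AbstractSimplicialComplex V) (v0 : V) {t : Finset V} (ht : t ∈ F X 1) :
    cob 0 (compInd X v0) t = 0 := by
  obtain ⟨hface, hcard⟩ := mem_F.mp ht
  obtain ⟨u, w, huw, rfl⟩ := Finset.card_eq_two.mp hcard
  have hadj : (graph X).Adj u w := ⟨huw, hface⟩
  unfold cob
  rw [zero_add, Finset.powersetCard_one, Finset.sum_map, Finset.sum_pair huw]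
  simp only [Function.Embedding.coeFn_mk]
  rw [compInd_singleton, compInd_singleton]
  have hiff : (graph X).Reachable v0 u ↔ (graph X).Reachable v0 w :=
    ⟨fun h => h.trans hadj.reachable, fun h => h.trans hadj.symm.reachable⟩
  by_cases h : (graph X).Reachable v0 u
  · rw [if_pos h, if_pos (hiff.1 h)]; exact zmod2_add_self 1
  · rw [if_neg h, if_neg (fun h' => h (hiff.2 h'))]; simp

lemma wt_pos_of_pure {X : AbstractSimplicialComplex V} {d i : ℕ} (hi : i ≤ d) (hp : IsPure X d)
    {s : Finset V} (hs : s ∈ F X i) : 0 < wt X d i s := by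
  obtain ⟨t, ht, hst⟩ := hp s (mem_F.mp hs).1
  have h1 : 0 < deg X d s := Finset.card_pos.mpr ⟨t, Finset.mem_filter.mpr ⟨ht, hst⟩⟩
  have h2 : 0 < (F X d).card := Finset.card_pos.mpr ⟨t, ht⟩
  have h3 : 0 < (d + 1).choose (i + 1) := Nat.choose_pos (by omega)
  unfold wt
  positivity

/-- A pure coboundary expander of positive dimension has a connected `1`-skeleton. -/
theorem connected_of_cobExp [Nonempty V] {X : AbstractSimplicialComplex V} {d : ℕ} (hd : 1 ≤ d)
    {ε : ℝ} (hε : 0 < ε) (hp : IsPure X d) (h : IsCobExp X d ε) : (graph X).Connected := by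
  obtain ⟨v0⟩ := ‹Nonempty V›
  obtain ⟨b, ⟨c, hc⟩, hle⟩ := h 0 (by omega) (compInd X v0)
  have h0 : nrm X d (0 + 1) (cob 0 (compInd X v0)) = 0 := by
    unfold nrm
    have : (F X (0 + 1)).filter (fun s => cob 0 (compInd X v0) s ≠ 0) = ∅ := by
      rw [Finset.filter_eq_empty_iff]
      intro s hs
      exact not_not.2 (cob_compInd X v0 hs)
    rw [this, Finset.sum_empty]
  rw [h0] at hle
  have hn : nrm X d 0 (compInd X v0 - b) = 0 := by
    have h1 := nrm_nonneg X d 0 (compInd X v0 - b)
    have h2 : nrm X d 0 (compInd X v0 - b) ≤ 0 := by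
      by_contra hcon
      have : 0 < ε * nrm X d 0 (compInd X v0 - b) := mul_pos hε (not_le.1 hcon)
      linarith
    linarith
  have hall : ∀ u : V, compInd X v0 {u} = c := by
    intro u
    by_contra hne
    have hmem : ({u} : Finset V) ∈ (F X 0).filter (fun s => (compInd X v0 - b) s ≠ 0) := by
      rw [Finset.mem_filter]
      refine ⟨singleton_mem_F X u, ?_⟩
      rw [Pi.sub_apply, hc _ (singleton_mem_F X u)]
      exact sub_ne_zero.2 hne
    unfold nrm at hn
    have hz := (Finset.sum_eq_zero_iff_of_nonneg (fun s hs =>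
      (wt_pos_of_pure (Nat.zero_le d) hp (Finset.mem_filter.1 hs).1).le)).1 hn _ hmem
    exact (wt_pos_of_pure (Nat.zero_le d) hp (singleton_mem_F X u)).ne' hz
  have hc1 : c = 1 := by
    rw [← hall v0, compInd_singleton, if_pos (SimpleGraph.Reachable.refl v0)]
  have hreach : ∀ u, (graph X).Reachable v0 u := by
    intro u
    by_contra hne
    have := hall u
    rw [compInd_singleton, if_neg hne, hc1] at this
    exact zero_ne_one this
  exact { preconnected := fun u w => (hreach u).symm.trans (hreach w), nonempty := ⟨v0⟩ }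

end Vale.Agent.P067
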