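import Vale.Agent.P067.Count

namespace Vale.Agent.P067

open Finset
open scoped Classical

set_option linter.unusedSectionVars false

variable {V : Type} [Fintype V]

/-- Coboundary expansion in the counting norm. -/
def CExp (X : AbstractSimplicialComplex V) (d K0 : ℕ) : Prop :=
  ∀ i < d, ∀ f : Finset V → ZMod 2,
    ∃ b, IsCobdry X i b ∧ cnt X i (f - b) ≤ K0 * cnt X (i + 1) (cob i f)

/-- Every `i`-face lies in at most `D1` faces of dimension `i+1`. -/
def CofaceLE (X : AbstractSimplicialComplex V) (D1 : ℕ) : Prop :=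
  ∀ i, ∀ σ ∈ F X i, ((F X (i + 1)).filter (fun τ => σ ⊆ τ)).card ≤ D1

/-- A contraction at level `i+1` all of whose columns have at most `K` nonzero entries. -/
def HasContr (X : AbstractSimplicialComplex V) (i K : ℕ) : Prop :=
  ∃ G G' : Finset V → Finset V → ZMod 2, (∀ σ ∈ F X (i + 1), cnt X i (G σ) ≤ K) ∧
    ∀ x : Finset V → ZMod 2, ∀ σ ∈ F X (i + 1),
      x σ = cob i (lin (F X (i + 1)) x G) σ + lin (F X (i + 2)) (cob (i + 1) x) G' σ

lemma hasContr_top {X : AbstractSimplicialComplex V} {e K0 : ℕ} (hC : CExp X (e + 1) K0)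
    (hacyc : ∀ h : Finset V → ZMod 2, IsCobdry X (e + 1) h) : HasContr X e K0 := by
  have key : ∀ τ : Finset V, ∃ g : Finset V → ZMod 2, cnt X e g ≤ K0 ∧
      ∀ s ∈ F X (e + 1), cob e g s = ind τ s := by
    intro τ
    obtain ⟨g, hg⟩ := hacyc (ind τ)
    obtain ⟨b, hb, hle⟩ := hC e (Nat.lt_succ_self e) g
    refine ⟨g - b, ?_, ?_⟩
    · refine le_trans hle ?_
      have h1 : cnt X (e + 1) (cob e g) = cnt X (e + 1) (ind τ) :=
        cnt_congr (fun s hs => (hg s hs).symm)
      rw [h1]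
      calc K0 * cnt X (e + 1) (ind τ) ≤ K0 * 1 := Nat.mul_le_mul_left _ (cnt_ind_le X _ τ)
        _ = K0 := mul_one _
    · intro s hs
      rw [cob_sub, Pi.sub_apply, cob_of_isCobdry hb hs, sub_zero, hg s hs]
  choose G hG1 hG2 using key
  refine ⟨G, fun _ _ => 0, fun σ _ => hG1 σ, ?_⟩
  intro x σ hσ
  rw [cob_lin, Finset.sum_congr rfl (fun τ _ => by rw [hG2 τ σ hσ]), sum_mul_ind x hσ]
  unfold lin
  simp

lemma hasContr_step {X : AbstractSimplicialComplex V} {d K0 D1 i K' : ℕ} (hC : CExp X d K0)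
    (hco : CofaceLE X D1) (hi : i + 1 < d) (h : HasContr X (i + 1) K') :
    HasContr X i (K0 * (1 + D1 * K')) := by
  obtain ⟨G2, G3, hK, hid⟩ := h
  have key : ∀ σ ∈ F X (i + 1), ∃ g : Finset V → ZMod 2, cnt X i g ≤ K0 * (1 + D1 * K') ∧
      ∀ s ∈ F X (i + 1), cob i g s
        = ind σ s + lin (F X (i + 2)) (cob (i + 1) (ind σ)) G2 s := by
    intro σ hσ
    set z := cob (i + 1) (ind σ) with hz
    set y := ind σ + lin (F X (i + 2)) z G2 with hy
    have hcoc : ∀ τ ∈ F X (i + 2), cob (i + 1) y τ = 0 := by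
      intro τ hτ
      have h1 := hid z τ hτ
      have h2 : lin (F X (i + 1 + 2)) (cob (i + 1 + 1) z) G3 τ = 0 := by
        apply lin_zero
        intro ρ hρ
        rw [hz]
        exact cob_cob (i + 1) (ind σ) (mem_F.mp hρ).2
      rw [h2, add_zero] at h1
      rw [hy, cob_add, Pi.add_apply, ← hz, ← h1, zmod2_add_self]
    obtain ⟨b, hb, hle⟩ := hC (i + 1) hi y
    have hzero : cnt X (i + 1 + 1) (cob (i + 1) y) = 0 := cnt_eq_zero_iff.mpr hcoc
    rw [hzero, mul_zero, Nat.le_zero, cnt_eq_zero_iff] at hle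
    obtain ⟨g, hg⟩ := hb
    have hyg : ∀ s ∈ F X (i + 1), y s = cob i g s := by
      intro s hs
      have := hle s hs
      rw [Pi.sub_apply, sub_eq_zero] at this
      rw [this, hg s hs]
    obtain ⟨b', hb', hle'⟩ := hC i (by omega) g
    refine ⟨g - b', ?_, ?_⟩
    · refine le_trans hle' (Nat.mul_le_mul_left _ ?_)
      rw [cnt_congr (fun s hs => (hyg s hs).symm), hy]
      refine le_trans (cnt_add_le X _ _ _) (Nat.add_le_add (cnt_ind_le X _ σ) ?_)
      refine le_trans (cnt_lin_le X _ _ _ _) ?_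
      have hsub : (F X (i + 2)).filter (fun τ => z τ ≠ 0)
          ⊆ (F X (i + 1 + 1)).filter (fun τ => σ ⊆ τ) := by
        intro τ hτ
        rw [Finset.mem_filter] at hτ ⊢
        refine ⟨hτ.1, ?_⟩
        by_contra hns
        apply hτ.2
        rw [hz, cob_ind (mem_F.mp hσ).2, if_neg hns]
      calc ∑ τ ∈ (F X (i + 2)).filter (fun τ => z τ ≠ 0), cnt X (i + 1) (G2 τ)
          ≤ ∑ τ ∈ (F X (i + 2)).filter (fun τ => z τ ≠ 0), K' :=
            Finset.sum_le_sum (fun τ hτ => hK τ (Finset.mem_filter.mp hτ).1)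
        _ = ((F X (i + 2)).filter (fun τ => z τ ≠ 0)).card * K' := by
            rw [Finset.sum_const, smul_eq_mul]
        _ ≤ D1 * K' :=
            Nat.mul_le_mul_right _ (le_trans (Finset.card_le_card hsub) (hco (i + 1) σ hσ))
    · intro s hs
      rw [cob_sub, Pi.sub_apply, cob_of_isCobdry hb' hs, sub_zero, ← hyg s hs, hy]
      rfl
  choose! G hG1 hG2 using key
  refine ⟨G, G2, hG1, ?_⟩
  intro x s hs
  rw [cob_lin, Finset.sum_congr rfl (fun σ hσ => by rw [hG2 σ hσ s hs])]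
  simp only [mul_add]
  rw [Finset.sum_add_distrib, sum_mul_ind x hs]
  have hswap : ∑ σ ∈ F X (i + 1), x σ * lin (F X (i + 2)) (cob (i + 1) (ind σ)) G2 s
      = lin (F X (i + 2)) (cob (i + 1) x) G2 s := by
    unfold lin
    have hR : ∑ τ ∈ F X (i + 2), cob (i + 1) x τ * G2 τ s
        = ∑ τ ∈ F X (i + 2), ∑ σ ∈ F X (i + 1), x σ * cob (i + 1) (ind σ) τ * G2 τ s := by
      apply Finset.sum_congr rfl
      intro τ hτ
      rw [cob_eq_sum_ind x hτ, Finset.sum_mul]
    rw [hR, Finset.sum_comm]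
    apply Finset.sum_congr rfl
    intro σ _
    rw [Finset.mul_sum]
    apply Finset.sum_congr rfl
    intro τ _
    ring
  rw [hswap, add_assoc, zmod2_add_self, add_zero]

/-- The bound on the columns after `n` steps. -/
def Kseq (K0 D1 : ℕ) : ℕ → ℕ
  | 0 => K0
  | (n + 1) => K0 * (1 + D1 * Kseq K0 D1 n)

lemma hasContr_all {X : AbstractSimplicialComplex V} {e K0 D1 : ℕ} (hC : CExp X (e + 1) K0)
    (hco : CofaceLE X D1) (hacyc : ∀ h : Finset V → ZMod 2, IsCobdry X (e + 1) h) :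
    ∀ n i, i + n = e → HasContr X i (Kseq K0 D1 n) := by
  intro n
  induction n with
  | zero =>
    intro i hi
    have : i = e := by omega
    rw [this]
    exact hasContr_top hC hacyc
  | succ n ih =>
    intro i hi
    exact hasContr_step hC hco (by omega) (ih (i + 1) (by omega))

/-- The bottom of the contraction: every `0`-cochain is determined, up to a constant, by its
coboundary through a family of `0`-cochains `G e` with small supports. -/
lemma bottom {X : AbstractSimplicialComplex V} {d K0 K : ℕ} (hd : 0 < d) (hC : CExp X d K0)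
    (h : HasContr X 0 K) :
    ∃ G : Finset V → Finset V → ZMod 2, (∀ σ ∈ F X 1, cnt X 0 (G σ) ≤ K) ∧
      ∀ u : Finset V → ZMod 2, ∃ c : ZMod 2, ∀ v : V,
        u {v} + lin (F X 1) (cob 0 u) G {v} = c := by
  obtain ⟨G, G', hK, hid⟩ := h
  refine ⟨G, hK, ?_⟩
  intro u
  set y := u + lin (F X 1) (cob 0 u) G with hy
  have hcoc : ∀ τ ∈ F X 1, cob 0 y τ = 0 := by
    intro τ hτ
    have h1 := hid (cob 0 u) τ hτ
    have h2 : lin (F X (0 + 2)) (cob (0 + 1) (cob 0 u)) G' τ = 0 := by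
      apply lin_zero
      intro ρ hρ
      exact cob_cob 0 u (mem_F.mp hρ).2
    rw [h2, add_zero] at h1
    rw [hy, cob_add, Pi.add_apply]
    have h3 : cob 0 (lin (F X 1) (cob 0 u) G) τ = cob 0 u τ := h1.symm
    rw [h3, zmod2_add_self]
  obtain ⟨b, ⟨c, hc⟩, hle⟩ := hC 0 hd y
  have hzero : cnt X (0 + 1) (cob 0 y) = 0 := cnt_eq_zero_iff.mpr hcoc
  rw [hzero, mul_zero, Nat.le_zero, cnt_eq_zero_iff] at hle
  refine ⟨c, fun v => ?_⟩
  have := hle {v} (singleton_mem_F X v)
  rw [Pi.sub_apply, sub_eq_zero, hc _ (singleton_mem_F X v)] at this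
  exact this

end Vale.Agent.P067
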