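import Vale.Agent.P067.Basic

namespace Vale.Agent.P067

open Finset
open scoped Classical

set_option linter.unusedSectionVars false

variable {V : Type} [Fintype V]

/-- Counting norm: number of `i`-faces in the support. -/
noncomputable def cnt (X : AbstractSimplicialComplex V) (i : ℕ) (f : Finset V → ZMod 2) : ℕ :=
  ((F X i).filter (fun s => f s ≠ 0)).card

lemma cnt_congr {X : AbstractSimplicialComplex V} {i : ℕ} {f g : Finset V → ZMod 2}
    (h : ∀ s ∈ F X i, f s = g s) : cnt X i f = cnt X i g := by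
  unfold cnt
  congr 1
  apply Finset.filter_congr
  intro s hs
  rw [h s hs]

lemma cnt_eq_zero_iff {X : AbstractSimplicialComplex V} {i : ℕ} {f : Finset V → ZMod 2} :
    cnt X i f = 0 ↔ ∀ s ∈ F X i, f s = 0 := by
  unfold cnt
  rw [Finset.card_eq_zero, Finset.filter_eq_empty_iff]
  simp

lemma cnt_add_le (X : AbstractSimplicialComplex V) (i : ℕ) (f g : Finset V → ZMod 2) :
    cnt X i (f + g) ≤ cnt X i f + cnt X i g := by
  unfold cnt
  refine le_trans (Finset.card_le_card ?_) (Finset.card_union_le _ _)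
  intro s hs
  rw [Finset.mem_filter] at hs
  rw [Finset.mem_union, Finset.mem_filter, Finset.mem_filter]
  by_contra hcon
  push_neg at hcon
  apply hs.2
  rw [Pi.add_apply, hcon.1 hs.1, hcon.2 hs.1, add_zero]

lemma cnt_ind_le (X : AbstractSimplicialComplex V) (i : ℕ) (a : Finset V) :
    cnt X i (ind a) ≤ 1 := by
  unfold cnt
  have : (F X i).filter (fun s => ind a s ≠ 0) ⊆ {a} := by
    intro s hs
    rw [Finset.mem_filter] at hs
    rw [Finset.mem_singleton]
    by_contra hne
    apply hs.2
    unfold ind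
    rw [if_neg hne]
  exact le_trans (Finset.card_le_card this) (by simp)

/-- Linear combination of a family of cochains. -/
noncomputable def lin (A : Finset (Finset V)) (c : Finset V → ZMod 2)
    (G : Finset V → Finset V → ZMod 2) : Finset V → ZMod 2 :=
  fun ρ => ∑ σ ∈ A, c σ * G σ ρ

lemma cnt_lin_le (X : AbstractSimplicialComplex V) (i : ℕ) (A : Finset (Finset V))
    (c : Finset V → ZMod 2) (G : Finset V → Finset V → ZMod 2) :
    cnt X i (lin A c G) ≤ ∑ σ ∈ A.filter (fun σ => c σ ≠ 0), cnt X i (G σ) := by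
  unfold cnt
  refine le_trans (Finset.card_le_card ?_) Finset.card_biUnion_le
  intro s hs
  rw [Finset.mem_filter] at hs
  rw [Finset.mem_biUnion]
  by_contra hcon
  push_neg at hcon
  apply hs.2
  unfold lin
  apply Finset.sum_eq_zero
  intro σ hσ
  by_cases hc : c σ = 0
  · rw [hc, zero_mul]
  · have := hcon σ (Finset.mem_filter.mpr ⟨hσ, hc⟩)
    rw [Finset.mem_filter] at this
    push_neg at this
    rw [this hs.1, mul_zero]

lemma cob_lin (i : ℕ) (A : Finset (Finset V)) (c : Finset V → ZMod 2)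
    (G : Finset V → Finset V → ZMod 2) (t : Finset V) :
    cob i (lin A c G) t = ∑ σ ∈ A, c σ * cob i (G σ) t := by
  unfold cob lin
  rw [Finset.sum_comm]
  apply Finset.sum_congr rfl
  intro σ _
  rw [Finset.mul_sum]

lemma lin_congr {A : Finset (Finset V)} {c c' : Finset V → ZMod 2}
    (G : Finset V → Finset V → ZMod 2) (h : ∀ σ ∈ A, c σ = c' σ) : lin A c G = lin A c' G := by
  funext ρ
  unfold lin
  apply Finset.sum_congr rfl
  intro σ hσ
  rw [h σ hσ]

lemma lin_zero {A : Finset (Finset V)} {c : Finset V → ZMod 2}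
    (G : Finset V → Finset V → ZMod 2) (h : ∀ σ ∈ A, c σ = 0) (ρ : Finset V) :
    lin A c G ρ = 0 := by
  unfold lin
  apply Finset.sum_eq_zero
  intro σ hσ
  rw [h σ hσ, zero_mul]

/-- Expansion of a coboundary in terms of the coboundaries of indicator cochains. -/
lemma cob_eq_sum_ind {X : AbstractSimplicialComplex V} {i : ℕ} (x : Finset V → ZMod 2)
    {t : Finset V} (ht : t ∈ F X (i + 1)) :
    cob i x t = ∑ σ ∈ F X i, x σ * cob i (ind σ) t := by
  have h1 : ∀ σ ∈ F X i, x σ * cob i (ind σ) t = if σ ⊆ t then x σ else 0 := by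
    intro σ hσ
    rw [cob_ind (mem_F.mp hσ).2]
    split_ifs <;> simp
  rw [Finset.sum_congr rfl h1, ← Finset.sum_filter]
  unfold cob
  apply Finset.sum_congr _ (fun _ _ => rfl)
  ext σ
  rw [Finset.mem_powersetCard, Finset.mem_filter]
  constructor
  · rintro ⟨h, hc⟩
    exact ⟨mem_F_of_subset ht h hc, h⟩
  · rintro ⟨h, hs⟩
    exact ⟨hs, (mem_F.mp h).2⟩

lemma sum_mul_ind {A : Finset (Finset V)} (x : Finset V → ZMod 2) {t : Finset V} (ht : t ∈ A) :
    ∑ σ ∈ A, x σ * ind σ t = x t := by
  unfold ind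
  have : ∀ σ ∈ A, x σ * (if t = σ then (1 : ZMod 2) else 0) = if t = σ then x σ else 0 := by
    intro σ _
    split_ifs <;> simp
  rw [Finset.sum_congr rfl this, Finset.sum_ite_eq, if_pos ht]

end Vale.Agent.P067
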