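import Mathlib

/-!
# P067: coboundary expansion over `ZMod 2` of finite simplicial complexes

Definitions follow the problem file.  A finite simplicial complex is a Mathlib
`AbstractSimplicialComplex V` on a finite vertex type `V` (every element of `V` is a vertex).
A cochain is represented by a function `Finset V → ZMod 2`; only its values on the faces of the
relevant dimension are ever used.
-/

namespace Vale.Agent.P067

open Finset
open scoped Classical

variable {V : Type} [Fintype V]

/-- `F X i` is `X(i)`: the set of faces of `X` with `i + 1` vertices. -/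
noncomputable def F (X : AbstractSimplicialComplex V) (i : ℕ) : Finset (Finset V) :=
  Finset.univ.filter (fun s => s ∈ X.faces ∧ s.card = i + 1)

/-- `X` is pure `d`-dimensional: every face lies in a face with `d + 1` vertices. -/
def IsPure (X : AbstractSimplicialComplex V) (d : ℕ) : Prop :=
  ∀ s ∈ X.faces, ∃ t ∈ F X d, s ⊆ t

/-- The number of `d`-faces of `X` containing the set `s`. -/
noncomputable def deg (X : AbstractSimplicialComplex V) (d : ℕ) (s : Finset V) : ℕ :=
  ((F X d).filter (fun t => s ⊆ t)).card

/-- The weight `w_i(s) = #{t ∈ X(d) : s ⊆ t} / (binom (d+1) (i+1) * |X(d)|)`. -/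
noncomputable def wt (X : AbstractSimplicialComplex V) (d i : ℕ) (s : Finset V) : ℝ :=
  (deg X d s : ℝ) / (((d + 1).choose (i + 1) : ℝ) * ((F X d).card : ℝ))

/-- The weighted norm of an `i`-cochain: the total weight of the `i`-faces on which it is nonzero. -/
noncomputable def nrm (X : AbstractSimplicialComplex V) (d i : ℕ) (f : Finset V → ZMod 2) : ℝ :=
  ∑ s ∈ (F X i).filter (fun s => f s ≠ 0), wt X d i s

/-- The coboundary `δ_i`: `(δ_i f)(t)` is the sum of `f s` over the subsets `s ⊆ t` with `i + 1`
elements. -/
def cob (i : ℕ) (f : Finset V → ZMod 2) : Finset V → ZMod 2 :=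
  fun t => ∑ s ∈ t.powersetCard (i + 1), f s

/-- `b` represents an element of `B^i(X)`: constant on vertices for `i = 0`, and equal on `X(i)` to
`δ_{i-1} g` for some `g` when `i ≥ 1`. -/
def IsCobdry (X : AbstractSimplicialComplex V) : ℕ → (Finset V → ZMod 2) → Prop
  | 0, b => ∃ c : ZMod 2, ∀ s ∈ F X 0, b s = c
  | (i + 1), b => ∃ g : Finset V → ZMod 2, ∀ s ∈ F X (i + 1), b s = cob i g s

/-- `X` (of dimension `d`) is an `ε`-coboundary expander: for all `i < d` and all `i`-cochains `f`
some `b ∈ B^i` has `ε * ‖f - b‖_i ≤ ‖δ_i f‖_{i+1}`, i.e. `ε * dist_i (f, B^i) ≤ ‖δ_i f‖_{i+1}`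
(the minimum defining the distance is over a finite set, hence attained). -/
def IsCobExp (X : AbstractSimplicialComplex V) (d : ℕ) (ε : ℝ) : Prop :=
  ∀ i < d, ∀ f : Finset V → ZMod 2,
    ∃ b, IsCobdry X i b ∧ ε * nrm X d i (f - b) ≤ nrm X d (i + 1) (cob i f)

/-- The degree of `X` is at most `D`: every vertex lies in at most `D` faces of dimension `d`. -/
def DegLE (X : AbstractSimplicialComplex V) (d D : ℕ) : Prop :=
  ∀ v : V, deg X d {v} ≤ D

/-- The `1`-skeleton of `X` as a graph on the vertex set. -/
def graph (X : AbstractSimplicialComplex V) : SimpleGraph V where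
  Adj u v := u ≠ v ∧ ({u, v} : Finset V) ∈ X.faces
  symm := ⟨fun u v h => ⟨h.1.symm, by rw [Finset.pair_comm]; exact h.2⟩⟩
  loopless := ⟨fun u h => h.1 rfl⟩

end Vale.Agent.P067
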