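import Vale.Agent.P067.Defs

namespace Vale.Agent.P067

open Finset
open scoped Classical

variable {V : Type} [Fintype V]

/-- Balls in the dual graph of `X`: `dualBall X d τ0 0 = {τ0}` and `dualBall X d τ0 (r + 1)` adds
to `dualBall X d τ0 r` every `d`-face sharing `d` vertices (a common `(d-1)`-face) with one of its
members. -/
noncomputable def dualBall (X : AbstractSimplicialComplex V) (d : ℕ) (τ0 : Finset V) :
    ℕ → Finset (Finset V)
  | 0 => {τ0}
  | (r + 1) => dualBall X d τ0 r ∪
      (F X d).filter (fun τ => ∃ τ' ∈ dualBall X d τ0 r, (τ ∩ τ').card = d)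

end Vale.Agent.P067
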