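import Vale.Agent.P067.Pairs

namespace Vale.Agent.P067

open Finset
open scoped Classical

set_option linter.unusedSectionVars false

variable {k m d : ℕ}

/-- The constant in the load estimate. -/
def Kc (k d : ℕ) : ℕ := 2 ^ (d + 1) * 2 ^ (2 ^ (k + d)) * (2 * k) ^ (k + d)

lemma load_aux1 (i : ℕ) (e g : Finset (Lam k m)) :
    ∑ σ ∈ (F (cplx k m d) i).filter (fun σ => e ⊆ U σ ∪ g), deg (cplx k m d) d σ ≤
      2 ^ (d + 1) * ((F (cplx k m d) d).filter (fun T => e ⊆ U T ∪ g)).card := by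
  have h1 : ∑ σ ∈ (F (cplx k m d) i).filter (fun σ => e ⊆ U σ ∪ g), deg (cplx k m d) d σ
      = ∑ σ ∈ (F (cplx k m d) i).filter (fun σ => e ⊆ U σ ∪ g),
          ∑ _T ∈ (F (cplx k m d) d).filter (fun T => σ ⊆ T), 1 := by
    apply Finset.sum_congr rfl
    intro σ _
    rw [Finset.sum_const, smul_eq_mul, mul_one]
    rfl
  have h2 : ∑ σ ∈ (F (cplx k m d) i).filter (fun σ => e ⊆ U σ ∪ g),
          ∑ _T ∈ (F (cplx k m d) d).filter (fun T => σ ⊆ T), 1
      = ∑ T ∈ (F (cplx k m d) d).filter (fun T => e ⊆ U T ∪ g),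
          ∑ _σ ∈ T.powerset.filter
            (fun σ => σ ∈ (F (cplx k m d) i).filter (fun σ => e ⊆ U σ ∪ g)), 1 := by
    apply Finset.sum_comm'
    intro σ T
    simp only [Finset.mem_filter, Finset.mem_powerset]
    constructor
    · rintro ⟨⟨hσ, he⟩, hT, hσT⟩
      exact ⟨⟨hσT, hσ, he⟩, hT, he.trans (Finset.union_subset_union_left (U_mono hσT))⟩
    · rintro ⟨⟨hσT, hσ, he⟩, hT, _⟩
      exact ⟨⟨hσ, he⟩, hT, hσT⟩
  rw [h1, h2, mul_comm, ← smul_eq_mul, ← Finset.sum_const]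
  apply Finset.sum_le_sum
  intro T hT
  rw [Finset.sum_const, smul_eq_mul, mul_one]
  calc (T.powerset.filter
        (fun σ => σ ∈ (F (cplx k m d) i).filter (fun σ => e ⊆ U σ ∪ g))).card
      ≤ T.powerset.card := Finset.card_filter_le _ _
    _ = 2 ^ (d + 1) := by
        rw [Finset.card_powerset, (mem_F.mp (Finset.mem_filter.mp hT).1).2]

lemma load_aux2 (e g : Finset (Lam k m)) :
    ((F (cplx k m d) d).filter (fun T => e ⊆ U T ∪ g)).card ≤
      2 ^ (2 ^ (k + d)) *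
        ((Finset.univ.powersetCard (k + d)).filter (fun c : Finset (Lam k m) => e ⊆ c ∪ g)).card := by
  set s := (F (cplx k m d) d).filter (fun T => e ⊆ U T ∪ g) with hs
  have himg : s.image U ⊆
      (Finset.univ.powersetCard (k + d)).filter (fun c : Finset (Lam k m) => e ⊆ c ∪ g) := by
    intro c hc
    obtain ⟨T, hT, rfl⟩ := Finset.mem_image.mp hc
    rw [hs, Finset.mem_filter] at hT
    rw [Finset.mem_filter, Finset.mem_powersetCard]
    exact ⟨⟨Finset.subset_univ _, card_U_top hT.1⟩, hT.2⟩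
  have h1 : s.card ≤ 2 ^ (2 ^ (k + d)) * (s.image U).card := by
    apply Finset.card_le_mul_card_image
    intro c hc
    have hc' := himg hc
    rw [Finset.mem_filter, Finset.mem_powersetCard] at hc'
    refine le_trans (Finset.card_le_card ?_) (card_flags_le c hc'.1.2)
    intro T hT
    rw [Finset.mem_filter] at hT ⊢
    exact ⟨(Finset.mem_filter.mp hT.1).1, hT.2⟩
  exact h1.trans (Nat.mul_le_mul_left _ (Finset.card_le_card himg))

/-- The load estimate. -/
theorem load_le (hk : 0 < k) (i : ℕ) {τ : Finset (Cell k m d)} (hτ : τ ∈ (cplx k m d).faces) :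
    ∑ v : Fin k → Fin m, ∑ σ ∈ (F (cplx k m d) i).filter (fun σ => U τ ⊆ U σ ∪ gr v),
      deg (cplx k m d) d σ ≤ Kc k d * m ^ k * deg (cplx k m d) d τ := by
  have he : (U τ).card ≤ k + d := by
    obtain ⟨B, _, hB⟩ := U_mem hτ.1 hτ.2
    rw [hB]
    exact B.2.2
  calc ∑ v : Fin k → Fin m, ∑ σ ∈ (F (cplx k m d) i).filter (fun σ => U τ ⊆ U σ ∪ gr v),
      deg (cplx k m d) d σ
      ≤ ∑ v : Fin k → Fin m, 2 ^ (d + 1) * (2 ^ (2 ^ (k + d)) *
          ((Finset.univ.powersetCard (k + d)).filter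
            (fun c : Finset (Lam k m) => U τ ⊆ c ∪ gr v)).card) := by
        apply Finset.sum_le_sum
        intro v _
        exact (load_aux1 i (U τ) (gr v)).trans (Nat.mul_le_mul_left _ (load_aux2 (U τ) (gr v)))
    _ = 2 ^ (d + 1) * (2 ^ (2 ^ (k + d)) * ∑ v : Fin k → Fin m,
          ((Finset.univ.powersetCard (k + d)).filter
            (fun c : Finset (Lam k m) => U τ ⊆ c ∪ gr v)).card) := by
        rw [Finset.mul_sum, Finset.mul_sum]
    _ ≤ 2 ^ (d + 1) * (2 ^ (2 ^ (k + d)) * ((2 * k) ^ (k + d) * m ^ k *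
          (k * m - (U τ).card).choose (k + d - (U τ).card))) :=
        Nat.mul_le_mul_left _ (Nat.mul_le_mul_left _ (count_pairs hk (U τ) he))
    _ ≤ 2 ^ (d + 1) * (2 ^ (2 ^ (k + d)) * ((2 * k) ^ (k + d) * m ^ k *
          deg (cplx k m d) d τ)) :=
        Nat.mul_le_mul_left _ (Nat.mul_le_mul_left _ (Nat.mul_le_mul_left _ (le_deg hτ)))
    _ = Kc k d * m ^ k * deg (cplx k m d) d τ := by
        unfold Kc
        ring

end Vale.Agent.P067
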