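import Vale.Agent.P067.Flags

namespace Vale.Agent.P067

open Finset
open scoped Classical

set_option linter.unusedSectionVars false

variable {k m d : ℕ}

/-- The union of the subcomplexes `O (E \ {l})`, `l ∈ L`. -/
def UU (d : ℕ) (E L : Finset (Lam k m)) : Set (Finset (Cell k m d)) :=
  {σ | ∃ l ∈ L, σ ∈ O d (E.erase l)}

lemma UU_down (E L : Finset (Lam k m)) : DownClosed (UU d E L : Set (Finset (Cell k m d))) := by
  rintro σ ⟨l, hl, hσ⟩ ρ hρ
  exact ⟨l, hl, O_down _ σ hσ ρ hρ⟩

lemma O_not_adm {E : Finset (Lam k m)} (hE : ¬ Adm E) {σ : Finset (Cell k m d)}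
    (hσ : σ ∈ O d E) : σ = ∅ := by
  by_contra hne
  obtain ⟨B, hB⟩ := Finset.nonempty_iff_ne_empty.mpr hne
  exact hE (B.2.1.mono (hσ.2 B hB))

lemma UU_split {E L : Finset (Lam k m)} {l : Lam k m} (hl : l ∈ L) :
    (UU d E L : Set (Finset (Cell k m d))) = UU d E (L.erase l) ∪ O d (E.erase l) := by
  ext σ
  constructor
  · rintro ⟨l', hl', hσ⟩
    by_cases h : l' = l
    · subst h
      exact Or.inr hσ
    · exact Or.inl ⟨l', Finset.mem_erase.mpr ⟨h, hl'⟩, hσ⟩
  · rintro (⟨l', hl', hσ⟩ | hσ)
    · exact ⟨l', Finset.mem_of_mem_erase hl', hσ⟩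
    · exact ⟨l, hl, hσ⟩

lemma UU_inter (E L : Finset (Lam k m)) (l : Lam k m) :
    (UU d E (L.erase l) : Set (Finset (Cell k m d))) ∩ O d (E.erase l)
      = UU d (E.erase l) (L.erase l) := by
  ext σ
  constructor
  · rintro ⟨⟨l', hl', hσ⟩, hσ'⟩
    refine ⟨l', hl', hσ.1, fun B hB => ?_⟩
    intro x hx
    rw [Finset.mem_erase]
    have h1 := hσ.2 B hB hx
    exact ⟨(Finset.mem_erase.mp h1).1, hσ'.2 B hB hx⟩
  · rintro ⟨l', hl', hσ⟩
    refine ⟨⟨l', hl', hσ.1, fun B hB => ?_⟩, hσ.1, fun B hB => ?_⟩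
    · intro x hx
      have h1 := hσ.2 B hB hx
      rw [Finset.mem_erase, Finset.mem_erase] at h1
      exact Finset.mem_erase.mpr ⟨h1.1, h1.2.2⟩
    · exact (hσ.2 B hB).trans (Finset.erase_subset _ _)

lemma UU_singleton (E : Finset (Lam k m)) (l : Lam k m) :
    (UU d E {l} : Set (Finset (Cell k m d))) = O d (E.erase l) := by
  ext σ
  constructor
  · rintro ⟨l', hl', hσ⟩
    rw [Finset.mem_singleton] at hl'
    rw [← hl']
    exact hσ
  · intro hσ
    exact ⟨l, Finset.mem_singleton_self l, hσ⟩

lemma O_eq_UU {E : Finset (Lam k m)} (hE : k + d < E.card) :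
    (O d E : Set (Finset (Cell k m d))) = UU d E E := by
  ext σ
  constructor
  · intro hσ
    by_cases hne : σ.Nonempty
    · obtain ⟨B, hB, hU⟩ := U_mem hne hσ.1
      have hlt : B.1.card < E.card := lt_of_le_of_lt B.2.2 hE
      obtain ⟨l, hl, hlB⟩ : ∃ l ∈ E, l ∉ B.1 := by
        by_contra hcon
        push_neg at hcon
        exact absurd (Finset.card_le_card hcon) (by omega)
      refine ⟨l, hl, hσ.1, fun B' hB' => ?_⟩
      intro x hx
      have hxB : x ∈ B.1 := by
        rw [← hU]
        exact subset_U hB' hx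
      refine Finset.mem_erase.mpr ⟨?_, hσ.2 B' hB' hx⟩
      rintro rfl
      exact hlB hxB
    · rw [Finset.not_nonempty_iff_eq_empty] at hne
      subst hne
      obtain ⟨l, hl⟩ : E.Nonempty := by
        rw [← Finset.card_pos]
        omega
      exact ⟨l, hl, empty_mem_O _⟩
  · rintro ⟨l, _, hσ⟩
    exact O_mono (Finset.erase_subset _ _) hσ

lemma acyc_O_small {E : Finset (Lam k m)} (hE : Adm E) (hc : E.card ≤ k + d) (n : ℕ) :
    AcycUpTo (O d E : Set (Finset (Cell k m d))) n := by
  obtain ⟨a, ha⟩ : ∃ a : Cell k m d, a.1 = E := ⟨⟨E, hE, hc⟩, rfl⟩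
  apply acyc_of_cone a
  intro σ hσ
  constructor
  · intro B hB B' hB'
    rw [Finset.mem_insert] at hB hB'
    rcases hB with rfl | hB
    · rcases hB' with rfl | hB'
      · exact Or.inl (Finset.Subset.refl _)
      · exact Or.inr (by rw [ha]; exact hσ.2 B' hB')
    · rcases hB' with rfl | hB'
      · exact Or.inl (by rw [ha]; exact hσ.2 B hB)
      · exact hσ.1 B hB B' hB'
  · intro B hB
    rw [Finset.mem_insert] at hB
    rcases hB with rfl | hB
    · rw [ha]
    · exact hσ.2 B hB

/-- Some column is met by `L` but not contained in `L`. -/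
def Part (E L : Finset (Lam k m)) : Prop :=
  ∃ p ∈ E, ∃ q ∈ L, q.1 = p.1 ∧ p ∉ L

/-- The condition under which `UU d E L` is acyclic up to `n`. -/
def Good (E L : Finset (Lam k m)) (n : ℕ) : Prop :=
  Part E L ∨ n + 1 + (L.image Prod.fst).card ≤ L.card

lemma adm_erase {E : Finset (Lam k m)} (hE : Adm E) {l l' : Lam k m} (hl' : l' ∈ E)
    (hne : l' ≠ l) (h1 : l'.1 = l.1) : Adm (E.erase l) := by
  intro j
  by_cases hj : j = l.1
  · refine ⟨l'.2, Finset.mem_erase.mpr ⟨?_, ?_⟩⟩
    · intro h
      apply hne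
      rw [← h, hj, ← h1]
    · rw [hj, ← h1]
      exact hl'
  · obtain ⟨a, ha⟩ := hE j
    refine ⟨a, Finset.mem_erase.mpr ⟨?_, ha⟩⟩
    intro h
    apply hj
    rw [← h]

lemma acyc_O_of {E : Finset (Lam k m)} (hE : Adm E)
    (h : Good E E d → AcycUpTo (UU d E E : Set (Finset (Cell k m d))) d) :
    AcycUpTo (O d E : Set (Finset (Cell k m d))) d := by
  by_cases hc : E.card ≤ k + d
  · exact acyc_O_small hE hc d
  · push_neg at hc
    rw [O_eq_UU hc]
    apply h
    right
    have : (E.image Prod.fst).card ≤ k := by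
      calc (E.image Prod.fst).card ≤ (Finset.univ : Finset (Fin k)).card :=
            Finset.card_le_card (Finset.subset_univ _)
        _ = k := by rw [Finset.card_univ, Fintype.card_fin]
    omega

theorem acyc_UU : ∀ (N : ℕ) (E : Finset (Lam k m)), E.card = N → Adm E →
    ∀ (M : ℕ) (L : Finset (Lam k m)), L.card = M → L ⊆ E → ∀ n ≤ d, Good E L n →
      AcycUpTo (UU d E L : Set (Finset (Cell k m d))) n := by
  intro N
  induction N using Nat.strong_induction_on with
  | _ N ihN =>
  intro E hEN hE M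
  -- acyclicity of `O` for smaller sets
  have hS : ∀ l ∈ E, Adm (E.erase l) →
      AcycUpTo (O d (E.erase l) : Set (Finset (Cell k m d))) d := by
    intro l hl hadm
    apply acyc_O_of hadm
    intro hg
    exact ihN (E.erase l).card (by rw [Finset.card_erase_of_mem hl]; have := Finset.card_pos.mpr ⟨l, hl⟩; omega)
      (E.erase l) rfl hadm _ (E.erase l) rfl (Finset.Subset.refl _) d le_rfl hg
  induction M using Nat.strong_induction_on with
  | _ M ihM =>
  intro L hLM hLE n hn hgood
  by_cases hP : Part E L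
  · obtain ⟨p, hpE, q, hqL, hqp, hpL⟩ := hP
    have hpq : p ≠ q := by
      rintro rfl
      exact hpL hqL
    by_cases hsing : ∃ l ∈ L, l ≠ q
    · obtain ⟨l, hlL, hlq⟩ := hsing
      have hlE : l ∈ E := hLE hlL
      have hpl : p ≠ l := by
        rintro rfl
        exact hpL hlL
      have hcard : (L.erase l).card < M := by
        rw [Finset.card_erase_of_mem hlL]
        have := Finset.card_pos.mpr ⟨l, hlL⟩
        omega
      have hq' : q ∈ L.erase l := Finset.mem_erase.mpr ⟨hlq.symm, hqL⟩
      have hp' : p ∉ L.erase l := fun h => hpL (Finset.mem_of_mem_erase h)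
      have a1 : AcycUpTo (UU d E (L.erase l) : Set (Finset (Cell k m d))) n :=
        ihM _ hcard (L.erase l) rfl ((Finset.erase_subset _ _).trans hLE) n hn
          (Or.inl ⟨p, hpE, q, hq', hqp, hp'⟩)
      rw [UU_split hlL]
      by_cases hadm : Adm (E.erase l)
      · apply acyc_union (UU_down _ _) (O_down _) a1 ((hS l hlE hadm).mono hn)
          ⟨q, hq', empty_mem_O _⟩
        intro n' hn'
        rw [UU_inter]
        exact ihN (E.erase l).card
          (by rw [Finset.card_erase_of_mem hlE]; have := Finset.card_pos.mpr ⟨l, hlE⟩; omega)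
          (E.erase l) rfl hadm _ (L.erase l) rfl (Finset.erase_subset_erase _ hLE) n' (by omega)
          (Or.inl ⟨p, Finset.mem_erase.mpr ⟨hpl, hpE⟩, q, hq', hqp, hp'⟩)
      · have : (UU d E (L.erase l) : Set (Finset (Cell k m d))) ∪ O d (E.erase l)
            = UU d E (L.erase l) := by
          apply Set.union_eq_self_of_subset_right
          intro σ hσ
          rw [O_not_adm hadm hσ]
          exact ⟨q, hq', empty_mem_O _⟩
        rw [this]
        exact a1
    · push_neg at hsing
      have hL : L = {q} := by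
        ext x
        rw [Finset.mem_singleton]
        exact ⟨hsing x, fun h => h ▸ hqL⟩
      rw [hL, UU_singleton]
      exact (hS q (hLE hqL) (adm_erase hE hpE hpq hqp.symm)).mono hn
  · have hcount : n + 1 + (L.image Prod.fst).card ≤ L.card := by
      rcases hgood with h | h
      · exact absurd h hP
      · exact h
    obtain ⟨l, hlL, l', hl'L, hne, hfst⟩ : ∃ l ∈ L, ∃ l' ∈ L, l ≠ l' ∧ l.1 = l'.1 := by
      apply Finset.exists_ne_map_eq_of_card_lt_of_maps_to (t := L.image Prod.fst)
      · omega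
      · intro x hx
        exact Finset.mem_image_of_mem _ hx
    have hlE : l ∈ E := hLE hlL
    have hcard : (L.erase l).card + 1 = L.card := Finset.card_erase_add_one hlL
    have hl'' : l' ∈ L.erase l := Finset.mem_erase.mpr ⟨hne.symm, hl'L⟩
    have a1 : AcycUpTo (UU d E (L.erase l) : Set (Finset (Cell k m d))) n :=
      ihM _ (by omega) (L.erase l) rfl ((Finset.erase_subset _ _).trans hLE) n hn
        (Or.inl ⟨l, hlE, l', hl'', hfst.symm, Finset.notMem_erase l L⟩)
    have hadm : Adm (E.erase l) := adm_erase hE (hLE hl'L) hne.symm hfst.symm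
    rw [UU_split hlL]
    apply acyc_union (UU_down _ _) (O_down _) a1 ((hS l hlE hadm).mono hn)
      ⟨l', hl'', empty_mem_O _⟩
    intro n' hn'
    rw [UU_inter]
    refine ihN (E.erase l).card
      (by rw [Finset.card_erase_of_mem hlE]; have := Finset.card_pos.mpr ⟨l, hlE⟩; omega)
      (E.erase l) rfl hadm _ (L.erase l) rfl (Finset.erase_subset_erase _ hLE) n' (by omega)
      (Or.inr ?_)
    have : ((L.erase l).image Prod.fst).card ≤ (L.image Prod.fst).card :=
      Finset.card_le_card (Finset.image_subset_image (Finset.erase_subset _ _))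
    omega

/-- The `d`-skeleton of a product of simplices is acyclic below dimension `d`. -/
theorem acyc_O (E : Finset (Lam k m)) (hE : Adm E) :
    AcycUpTo (O d E : Set (Finset (Cell k m d))) d :=
  acyc_O_of hE (fun hg => acyc_UU E.card E rfl hE E.card E rfl (Finset.Subset.refl _) d le_rfl hg)

end Vale.Agent.P067
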