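import Vale.Agent.P067.ConeExp
import Vale.Agent.P067.Carrier
import Vale.Agent.P067.Sphere
import Vale.Agent.P067.Load
import Vale.Agent.P067.Conn
import Vale.Agent.P067.Arith

namespace Vale.Agent.P067

open Finset
open scoped Classical

set_option linter.unusedSectionVars false

variable {k m d : ℕ}

/-- The chain contractions of `cplx k m d`, one for every vertex `v` of the product. -/
lemma exists_cones_cplx (v : Fin k → Fin m) :
    ∃ c : Finset (Cell k m d) → Finset (Cell k m d) → ZMod 2, ∀ σ, IsCh σ → σ.card ≤ d →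
      SuppIn (O d (U σ ∪ gr v)) (σ.card + 1) (c σ) ∧
        bd (c σ) = ind σ + ∑ x ∈ σ, c (σ.erase x) := by
  apply exists_cones d {σ : Finset (Cell k m d) | IsCh σ} (fun σ hσ ρ hρ => IsCh.subset hσ hρ)
    (fun σ => O d (U σ ∪ gr v))
  · intro σ
    exact O_down _
  · intro σ ρ hρ
    exact O_mono (Finset.union_subset_union_left (U_mono hρ))
  · intro σ hσ
    exact ⟨hσ, fun B hB => (subset_U hB).trans Finset.subset_union_left⟩
  · intro σ _
    exact acyc_O _ ((adm_gr v).mono Finset.subset_union_right)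

theorem cobExp_cplx (hk : 0 < k) (hm : 0 < m) :
    IsCobExp (cplx k m d) d (1 / ((Kc k d : ℝ) * 2 ^ (d + 1))) := by
  choose c hc using (fun v : Fin k → Fin m => exists_cones_cplx (d := d) v)
  have : Nonempty (Fin k → Fin m) := ⟨fun _ => ⟨0, hm⟩⟩
  have hch : ∀ σ : Finset (Cell k m d), (σ = ∅ ∨ σ ∈ (cplx k m d).faces) → IsCh σ := by
    rintro σ (rfl | h)
    · exact (empty_mem_O (d := d) (∅ : Finset (Lam k m))).1
    · exact h.2
  apply cobExp_of_cones (cplx k m d) d c (Kc k d)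
  · unfold Kc
    positivity
  · intro v σ hσ hcard τ hne
    obtain ⟨h1, h2⟩ := (hc v σ (hch σ hσ) hcard).1 τ hne
    refine ⟨⟨?_, h1.1⟩, h2⟩
    rw [← Finset.card_pos]
    omega
  · intro v σ hσ hcard
    exact (hc v σ (hch σ hσ) hcard).2
  · intro i hi τ hτ
    rw [Fintype.card_fun, Fintype.card_fin, Fintype.card_fin]
    refine le_trans ?_ (load_le hk i (mem_F.mp hτ).1)
    apply Finset.sum_le_sum
    intro v _
    apply Finset.sum_le_sum_of_subset
    intro σ hσ
    rw [Finset.mem_filter] at hσ ⊢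
    refine ⟨hσ.1, ?_⟩
    have hσ' := mem_F.mp hσ.1
    have := ((hc v σ hσ'.1.2 (by omega)).1 τ hσ.2).1
    exact U_subset_iff.mpr this.2

theorem subpoly_degree (d : ℕ) (hd : 1 ≤ d) (c : ℝ) (hc : 0 < c) :
    ∃ ε : ℝ, 0 < ε ∧ ∀ n : ℕ, ∃ (V : Type) (_ : Fintype V) (X : AbstractSimplicialComplex V),
      n ≤ Fintype.card V ∧ IsPure X d ∧ (graph X).Connected ∧ IsCobExp X d ε ∧
      ∀ v : V, (deg X d {v} : ℝ) ≤ (Fintype.card V : ℝ) ^ c := by
  obtain ⟨k, hk, hkm⟩ := arith d c hc
  have hKpos : 0 < (Kc k d : ℝ) := by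
    unfold Kc
    positivity
  refine ⟨1 / ((Kc k d : ℝ) * 2 ^ (d + 1)), by positivity, ?_⟩
  intro n
  obtain ⟨m, hnm, hdm, hN⟩ := hkm (2 ^ (2 ^ (k + d))) n
  have hm : 0 < m := by omega
  have hcard : m ^ k ≤ Fintype.card (Cell k m d) := card_cell_ge
  have hpure : IsPure (cplx k m d) d := by
    apply isPure_cplx
    calc k + d ≤ k + k * d := by nlinarith
      _ = k * (d + 1) := by ring
      _ ≤ k * m := Nat.mul_le_mul_left k hdm
  have hexp := cobExp_cplx (d := d) hk hm
  have : Nonempty (Cell k m d) := by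
    rw [← Fintype.card_pos_iff]
    exact lt_of_lt_of_le (by positivity) hcard
  refine ⟨Cell k m d, inferInstance, cplx k m d, ?_, hpure, ?_, hexp, ?_⟩
  · calc n ≤ m := hnm
      _ = m ^ 1 := (pow_one m).symm
      _ ≤ m ^ k := Nat.pow_le_pow_right hm hk
      _ ≤ _ := hcard
  · exact connected_of_cobExp hd (by positivity) hpure hexp
  · intro B
    refine le_trans ?_ (hN _ hcard)
    exact_mod_cast deg_vertex_le (Nat.mul_pos hk hm) B

end Vale.Agent.P067
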