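import Vale.Agent.P067.Cells

namespace Vale.Agent.P067

open Finset
open scoped Classical

set_option linter.unusedSectionVars false

variable {k m d : ℕ}

lemma adm_card {B : Finset (Lam k m)} (h : Adm B) : k ≤ B.card := by
  have himg : B.image Prod.fst = (Finset.univ : Finset (Fin k)) := by
    ext j
    simp only [Finset.mem_image, Finset.mem_univ, iff_true]
    obtain ⟨a, ha⟩ := h j
    exact ⟨(j, a), ha, rfl⟩
  calc k = (Finset.univ : Finset (Fin k)).card := by simp
    _ = (B.image Prod.fst).card := by rw [himg]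
    _ ≤ B.card := Finset.card_image_le

lemma IsCh.subset_of_card_le {T : Finset (Cell k m d)} (h : IsCh T) {B B' : Cell k m d}
    (hB : B ∈ T) (hB' : B' ∈ T) (hc : B.1.card ≤ B'.1.card) : B.1 ⊆ B'.1 := by
  rcases h B hB B' hB' with h1 | h1
  · exact h1
  · rw [Finset.eq_of_subset_of_card_le h1 hc]

lemma IsCh.eq_of_card_eq {T : Finset (Cell k m d)} (h : IsCh T) {B B' : Cell k m d}
    (hB : B ∈ T) (hB' : B' ∈ T) (hc : B.1.card = B'.1.card) : B = B' :=
  Subtype.ext (Finset.Subset.antisymm (h.subset_of_card_le hB hB' hc.le)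
    (h.subset_of_card_le hB' hB hc.ge))

lemma IsCh.insert {T : Finset (Cell k m d)} (h : IsCh T) {B0 : Cell k m d}
    (h0 : ∀ B ∈ T, B0.1 ⊆ B.1 ∨ B.1 ⊆ B0.1) : IsCh (insert B0 T) := by
  intro B hB B' hB'
  rw [Finset.mem_insert] at hB hB'
  rcases hB with rfl | hB
  · rcases hB' with rfl | hB'
    · exact Or.inl (Finset.Subset.refl _)
    · exact h0 B' hB'
  · rcases hB' with rfl | hB'
    · exact (h0 B hB).symm
    · exact h B hB B' hB'

/-- The union of a nonempty chain is its largest member. -/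
lemma U_mem {σ : Finset (Cell k m d)} (hne : σ.Nonempty) (hσ : IsCh σ) : ∃ B ∈ σ, U σ = B.1 := by
  obtain ⟨B0, hB0, hmax⟩ := Finset.exists_max_image σ (fun B => B.1.card) hne
  refine ⟨B0, hB0, Finset.Subset.antisymm ?_ (subset_U hB0)⟩
  rw [U_subset_iff]
  intro B hB
  exact hσ.subset_of_card_le hB hB0 (hmax B hB)

/-- In a chain with `d + 1` members every admissible size occurs. -/
lemma exists_card_eq_of_top {T : Finset (Cell k m d)} (hT : IsCh T) (hcard : T.card = d + 1)
    {s : ℕ} (hs : s ∈ Finset.Icc k (k + d)) : ∃ B ∈ T, B.1.card = s := by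
  have hsub : T.image (fun B => B.1.card) ⊆ Finset.Icc k (k + d) := by
    intro t ht
    rw [Finset.mem_image] at ht
    obtain ⟨B, _, rfl⟩ := ht
    rw [Finset.mem_Icc]
    exact ⟨adm_card B.2.1, B.2.2⟩
  have hci : (T.image (fun B => B.1.card)).card = T.card :=
    Finset.card_image_of_injOn (fun B hB B' hB' h => hT.eq_of_card_eq hB hB' h)
  have heq : T.image (fun B => B.1.card) = Finset.Icc k (k + d) := by
    apply Finset.eq_of_subset_of_card_le hsub
    rw [hci, hcard, Nat.card_Icc]
    omega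
  rw [← heq, Finset.mem_image] at hs
  exact hs

/-- The largest cell of a top-dimensional face has dimension `d`. -/
lemma card_U_top {T : Finset (Cell k m d)} (hT : T ∈ F (cplx k m d) d) : (U T).card = k + d := by
  rw [mem_F, mem_cplx] at hT
  obtain ⟨⟨hne, hch⟩, hcard⟩ := hT
  obtain ⟨B, hB, hBc⟩ := exists_card_eq_of_top hch hcard
    (Finset.mem_Icc.mpr ⟨Nat.le_add_right k d, le_refl _⟩)
  obtain ⟨B', _, hU⟩ := U_mem hne hch
  apply le_antisymm
  · rw [hU]
    exact B'.2.2
  · rw [← hBc]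
    exact Finset.card_le_card (subset_U hB)

/-- An admissible set contains an admissible set with exactly `k` elements. -/
lemma exists_transversal {R : Finset (Lam k m)} (h : Adm R) :
    ∃ L : Finset (Lam k m), L ⊆ R ∧ Adm L ∧ L.card = k := by
  choose a ha using h
  refine ⟨gr a, ?_, adm_gr a, card_gr a⟩
  intro p hp
  rw [mem_gr] at hp
  have := ha p.1
  rw [hp] at this
  exact this

/-- Every chain inside a `d`-dimensional cell `c` extends to a full flag with largest cell `c`. -/
lemma exists_flag {τ : Finset (Cell k m d)} (hτ : τ ∈ (cplx k m d).faces) {c : Finset (Lam k m)}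
    (hc : U τ ⊆ c) (hcard : c.card = k + d) :
    ∃ T ∈ F (cplx k m d) d, τ ⊆ T ∧ U T = c := by
  rw [mem_cplx] at hτ
  obtain ⟨hτne, hτch⟩ := hτ
  -- the family of admissible extensions
  set 𝒯 : Finset (Finset (Cell k m d)) :=
    Finset.univ.filter (fun T => IsCh T ∧ τ ⊆ T ∧ U T ⊆ c) with h𝒯
  have h𝒯ne : 𝒯.Nonempty := ⟨τ, by
    rw [h𝒯, Finset.mem_filter]
    exact ⟨Finset.mem_univ _, hτch, Finset.Subset.refl _, hc⟩⟩
  obtain ⟨T, hT, hmax⟩ := Finset.exists_max_image 𝒯 Finset.card h𝒯ne
  rw [h𝒯, Finset.mem_filter] at hT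
  obtain ⟨-, hTch, hτT, hTc⟩ := hT
  have hTne : T.Nonempty := hτne.mono hτT
  -- no cell can be added
  have hins : ∀ B0 : Cell k m d, (∀ B ∈ T, B0.1 ⊆ B.1 ∨ B.1 ⊆ B0.1) → B0.1 ⊆ c → B0 ∈ T := by
    intro B0 h0 h0c
    by_contra hnot
    have hmem : insert B0 T ∈ 𝒯 := by
      rw [h𝒯, Finset.mem_filter]
      refine ⟨Finset.mem_univ _, hTch.insert h0, hτT.trans (Finset.subset_insert _ _), ?_⟩
      rw [U_subset_iff]
      intro B hB
      rw [Finset.mem_insert] at hB
      rcases hB with rfl | hB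
      · exact h0c
      · exact (subset_U hB).trans hTc
    have := hmax _ hmem
    rw [Finset.card_insert_of_notMem hnot] at this
    omega
  -- `c` is admissible
  obtain ⟨Bτ, hBτ⟩ := hτne
  have hcadm : Adm c := Bτ.2.1.mono ((subset_U hBτ).trans hc)
  -- `c` belongs to `T`
  have hcT : (⟨c, hcadm, hcard.le⟩ : Cell k m d) ∈ T :=
    hins _ (fun B hB => Or.inr ((subset_U hB).trans hTc)) (Finset.Subset.refl _)
  -- a transversal belongs to `T`
  have hbot : ∃ B ∈ T, B.1.card = k := by
    obtain ⟨B1, hB1, hmin⟩ := Finset.exists_min_image T (fun B => B.1.card) hTne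
    obtain ⟨L, hLR, hLadm, hLcard⟩ := exists_transversal B1.2.1
    refine ⟨⟨L, hLadm, by omega⟩, hins _ (fun B hB => Or.inl ?_) ?_, hLcard⟩
    · exact hLR.trans (hTch.subset_of_card_le hB1 hB (hmin B hB))
    · exact hLR.trans ((subset_U hB1).trans hTc)
  -- every size occurs
  have hall : ∀ s ∈ Finset.Icc k (k + d), ∃ B ∈ T, B.1.card = s := by
    intro s hs
    rw [Finset.mem_Icc] at hs
    by_contra hnone
    have hnone' : ∀ B ∈ T, B.1.card ≠ s := fun B hB h => hnone ⟨B, hB, h⟩
    obtain ⟨Bk, hBk, hBkc⟩ := hbot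
    have hlow : (T.filter (fun B => B.1.card < s)).Nonempty := by
      refine ⟨Bk, Finset.mem_filter.mpr ⟨hBk, ?_⟩⟩
      have := hnone' Bk hBk
      omega
    have hhigh : (T.filter (fun B => s < B.1.card)).Nonempty := by
      refine ⟨_, Finset.mem_filter.mpr ⟨hcT, ?_⟩⟩
      have := hnone' _ hcT
      simp only at this ⊢
      omega
    obtain ⟨L, hL, hLmax⟩ := Finset.exists_max_image _ (fun B : Cell k m d => B.1.card) hlow
    obtain ⟨R, hR, hRmin⟩ := Finset.exists_min_image _ (fun B : Cell k m d => B.1.card) hhigh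
    rw [Finset.mem_filter] at hL hR
    have hLR : L.1 ⊆ R.1 := hTch.subset_of_card_le hL.1 hR.1 (by omega)
    obtain ⟨B, hLB, hBR, hBcard⟩ := Finset.exists_subsuperset_card_eq hLR hL.2.le hR.2.le
    have hBmem : (⟨B, L.2.1.mono hLB, by omega⟩ : Cell k m d) ∈ T := by
      apply hins
      · intro B' hB'
        rcases lt_or_gt_of_ne (hnone' B' hB') with hlt | hgt
        · right
          exact (hTch.subset_of_card_le hB' hL.1
            (hLmax B' (Finset.mem_filter.mpr ⟨hB', hlt⟩))).trans hLB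
        · left
          exact hBR.trans (hTch.subset_of_card_le hR.1 hB'
            (hRmin B' (Finset.mem_filter.mpr ⟨hB', hgt⟩)))
      · exact hBR.trans ((subset_U hR.1).trans hTc)
    exact hnone' _ hBmem hBcard
  -- conclusion
  have himg : T.image (fun B => B.1.card) = Finset.Icc k (k + d) := by
    ext s
    rw [Finset.mem_image]
    constructor
    · rintro ⟨B, _, rfl⟩
      rw [Finset.mem_Icc]
      exact ⟨adm_card B.2.1, B.2.2⟩
    · intro hs
      exact hall s hs
  have hTcard : T.card = d + 1 := by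
    have hci : (T.image (fun B => B.1.card)).card = T.card :=
      Finset.card_image_of_injOn (fun B hB B' hB' h => hTch.eq_of_card_eq hB hB' h)
    rw [← hci, himg, Nat.card_Icc]
    omega
  refine ⟨T, ?_, hτT, Finset.Subset.antisymm hTc (subset_U hcT)⟩
  rw [mem_F, mem_cplx]
  exact ⟨⟨hTne, hTch⟩, hTcard⟩

end Vale.Agent.P067
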