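import Vale.Agent.P067.Flags

namespace Vale.Agent.P067

open Finset
open scoped Classical

set_option linter.unusedSectionVars false

variable {k m d : ℕ}

lemma card_flags_le (c : Finset (Lam k m)) (hcard : c.card = k + d) :
    ((F (cplx k m d) d).filter (fun T => U T = c)).card ≤ 2 ^ (2 ^ (k + d)) := by
  have h : ((F (cplx k m d) d).filter (fun T => U T = c)).card ≤ (c.powerset.powerset).card := by
    apply Finset.card_le_card_of_injOn (fun T => T.image (fun B : Cell k m d => B.1))
    · intro T hT
      have hT' : U T = c := (Finset.mem_filter.mp (Finset.mem_coe.mp hT)).2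
      rw [Finset.mem_coe, Finset.mem_powerset]
      intro B hB
      obtain ⟨B', hB', rfl⟩ := Finset.mem_image.mp hB
      rw [Finset.mem_powerset, ← hT']
      exact subset_U hB'
    · intro T _ T' _ h
      exact Finset.image_injective (fun a b hab => Subtype.ext hab) h
  rw [Finset.card_powerset, Finset.card_powerset, hcard] at h
  exact h

/-- The number of `t`-element subsets of a finite type containing a given set. -/
lemma card_supersets {α : Type} [Fintype α] (S : Finset α) (t : ℕ) (hS : S.card ≤ t) :
    ((Finset.univ.powersetCard t).filter (fun c : Finset α => S ⊆ c)).card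
      = (Fintype.card α - S.card).choose (t - S.card) := by
  have h1 : (Fintype.card α - S.card).choose (t - S.card)
      = ((Finset.univ \ S).powersetCard (t - S.card)).card := by
    rw [Finset.card_powersetCard, Finset.card_sdiff_of_subset (Finset.subset_univ S),
      Finset.card_univ]
  rw [h1]
  apply Finset.card_nbij' (fun c => c \ S) (fun c => c ∪ S)
  · intro c hc
    have hc' := Finset.mem_filter.mp (Finset.mem_coe.mp hc)
    have hc1 := Finset.mem_powersetCard.mp hc'.1
    rw [Finset.mem_coe, Finset.mem_powersetCard]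
    refine ⟨Finset.sdiff_subset_sdiff (Finset.subset_univ c) (Finset.Subset.refl S), ?_⟩
    rw [Finset.card_sdiff_of_subset hc'.2, hc1.2]
  · intro c hc
    have hc1 := Finset.mem_powersetCard.mp (Finset.mem_coe.mp hc)
    have hdisj : Disjoint c S := by
      rw [Finset.disjoint_left]
      intro a ha haS
      exact (Finset.mem_sdiff.mp (hc1.1 ha)).2 haS
    rw [Finset.mem_coe, Finset.mem_filter, Finset.mem_powersetCard]
    refine ⟨⟨Finset.subset_univ _, ?_⟩, Finset.subset_union_right⟩
    rw [Finset.card_union_of_disjoint hdisj, hc1.2]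
    omega
  · intro c hc
    have hc' := Finset.mem_filter.mp (Finset.mem_coe.mp hc)
    exact Finset.sdiff_union_of_subset hc'.2
  · intro c hc
    have hc1 := Finset.mem_powersetCard.mp (Finset.mem_coe.mp hc)
    have hdisj : Disjoint c S := by
      rw [Finset.disjoint_left]
      intro a ha haS
      exact (Finset.mem_sdiff.mp (hc1.1 ha)).2 haS
    exact Finset.union_sdiff_cancel_right hdisj

lemma card_Lam : Fintype.card (Lam k m) = k * m := by
  rw [Fintype.card_prod, Fintype.card_fin, Fintype.card_fin]

lemma card_U_le {τ : Finset (Cell k m d)} (hτ : τ ∈ (cplx k m d).faces) :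
    (U τ).card ≤ k + d := by
  obtain ⟨B, _, hB⟩ := U_mem (mem_cplx.mp hτ).1 (mem_cplx.mp hτ).2
  rw [hB]
  exact B.2.2

lemma isPure_cplx (h : k + d ≤ k * m) : IsPure (cplx k m d) d := by
  intro s hs
  obtain ⟨c, hc, hcard⟩ := Finset.exists_superset_card_eq (card_U_le hs)
    (by rw [card_Lam]; exact h)
  obtain ⟨T, hT, hsT, _⟩ := exists_flag hs hc hcard
  exact ⟨T, hT, hsT⟩

lemma exists_supersets {α : Type} [Fintype α] (S : Finset α) (t : ℕ) (hS : S.card ≤ t) :
    ∃ A : Finset (Finset α), (∀ c, c ∈ A ↔ (c.card = t ∧ S ⊆ c)) ∧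
      A.card = (Fintype.card α - S.card).choose (t - S.card) :=
  ⟨_, fun c => by simp [Finset.mem_filter, Finset.mem_powersetCard], card_supersets S t hS⟩

lemma le_deg {τ : Finset (Cell k m d)} (hτ : τ ∈ (cplx k m d).faces) :
    (k * m - (U τ).card).choose (k + d - (U τ).card) ≤ deg (cplx k m d) d τ := by
  obtain ⟨A, hA, hAcard⟩ := exists_supersets (U τ) (k + d) (card_U_le hτ)
  rw [card_Lam] at hAcard
  rw [← hAcard]
  have hex : ∀ c : Finset (Lam k m), c ∈ A → ∃ T ∈ F (cplx k m d) d, τ ⊆ T ∧ U T = c := by
    intro c hc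
    have hc' := (hA c).mp hc
    exact exists_flag hτ hc'.2 hc'.1
  unfold deg
  apply Finset.card_le_card_of_injOn
    (fun c => if hc : c ∈ A then (hex c hc).choose else ∅)
  · intro c hc
    have hc' : c ∈ A := Finset.mem_coe.mp hc
    have hs := (hex c hc').choose_spec
    simp only [dif_pos hc']
    rw [Finset.mem_coe, Finset.mem_filter]
    exact ⟨hs.1, hs.2.1⟩
  · intro c hc c' hc' heq
    have h : c ∈ A := Finset.mem_coe.mp hc
    have h' : c' ∈ A := Finset.mem_coe.mp hc'
    simp only [dif_pos h, dif_pos h'] at heq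
    have hs := (hex c h).choose_spec.2.2
    have hs' := (hex c' h').choose_spec.2.2
    rw [← hs, ← hs', heq]

lemma deg_vertex_le (hn : 0 < k * m) (B : Cell k m d) :
    deg (cplx k m d) d {B} ≤ 2 ^ (2 ^ (k + d)) * (k * m) ^ d := by
  unfold deg
  have hBk : k ≤ B.1.card := adm_card B.2.1
  have hBd : B.1.card ≤ k + d := B.2.2
  obtain ⟨A, hA, hAcard⟩ := exists_supersets B.1 (k + d) hBd
  rw [card_Lam] at hAcard
  have h1 : ((F (cplx k m d) d).filter (fun t => ({B} : Finset (Cell k m d)) ⊆ t)).card
      ≤ 2 ^ (2 ^ (k + d)) * A.card := by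
    apply Finset.card_le_mul_card_image_of_maps_to (f := fun T => U T)
    · intro T hT
      have hT' := Finset.mem_filter.mp hT
      rw [hA]
      exact ⟨card_U_top hT'.1, subset_U (Finset.singleton_subset_iff.mp hT'.2)⟩
    · intro c hc
      have hc' := (hA c).mp hc
      refine le_trans (Finset.card_le_card ?_) (card_flags_le c hc'.1)
      intro T hT
      have hT' := Finset.mem_filter.mp hT
      rw [Finset.mem_filter]
      exact ⟨(Finset.mem_filter.mp hT'.1).1, hT'.2⟩
  refine le_trans h1 (Nat.mul_le_mul_left _ ?_)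
  rw [hAcard]
  calc (k * m - B.1.card).choose (k + d - B.1.card)
      ≤ (k * m - B.1.card) ^ (k + d - B.1.card) := Nat.choose_le_pow _ _
    _ ≤ (k * m) ^ (k + d - B.1.card) := Nat.pow_le_pow_left (Nat.sub_le _ _) _
    _ ≤ (k * m) ^ d := Nat.pow_le_pow_right hn (by omega)

lemma card_cell_ge : m ^ k ≤ Fintype.card (Cell k m d) := by
  have h : Fintype.card (Fin k → Fin m) ≤ Fintype.card (Cell k m d) := by
    apply Fintype.card_le_of_injective
      (fun v : Fin k → Fin m => (⟨gr v, adm_gr v, by rw [card_gr]; omega⟩ : Cell k m d))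
    intro v w hvw
    have h1 : gr v = gr w := congrArg Subtype.val hvw
    funext j
    have h2 : (j, v j) ∈ gr w := by
      rw [← h1]
      exact mem_gr.mpr rfl
    exact (mem_gr.mp h2).symm
  simpa using h

end Vale.Agent.P067
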