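import Vale.Agent.P067.Flags2

namespace Vale.Agent.P067

open Finset
open scoped Classical

set_option linter.unusedSectionVars false

variable {k m d : ℕ}

lemma prod_ite_mul_pow (J : Finset (Fin k)) :
    (∏ j : Fin k, (if j ∈ J then 1 else m)) * m ^ J.card = m ^ k := by
  have h2 : m ^ J.card = ∏ j : Fin k, (if j ∈ J then m else 1) := by
    rw [← Finset.prod_const, ← Finset.prod_filter]
    apply Finset.prod_congr _ (fun _ _ => rfl)
    ext j
    simp
  rw [h2, ← Finset.prod_mul_distrib]
  have : ∀ j ∈ (Finset.univ : Finset (Fin k)),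
      (if j ∈ J then 1 else m) * (if j ∈ J then m else 1) = m := by
    intro j _
    by_cases hj : j ∈ J <;> simp [hj]
  rw [Finset.prod_congr rfl this, Finset.prod_const, Finset.card_univ, Fintype.card_fin]

/-- The number of vertices of the product whose graph contains a given set of `p` entries is at
most `m ^ (k - p)`. -/
lemma nv_le (Ψ : Finset (Lam k m)) :
    (Finset.univ.filter (fun v : Fin k → Fin m => Ψ ⊆ gr v)).card * m ^ Ψ.card ≤ m ^ k := by
  by_cases hex : ∃ v0 : Fin k → Fin m, Ψ ⊆ gr v0
  · obtain ⟨v0, hv0⟩ := hex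
    have hinj : Set.InjOn (Prod.fst : Lam k m → Fin k) (Ψ : Set (Lam k m)) := by
      intro p hp q hq hpq
      have h1 := mem_gr.mp (hv0 hp)
      have h2 := mem_gr.mp (hv0 hq)
      apply Prod.ext hpq
      rw [← h1, ← h2, hpq]
    have hJ : (Ψ.image Prod.fst).card = Ψ.card := Finset.card_image_of_injOn hinj
    have hsub : Finset.univ.filter (fun v : Fin k → Fin m => Ψ ⊆ gr v) ⊆
        Fintype.piFinset (fun j : Fin k =>
          if j ∈ Ψ.image Prod.fst then ({v0 j} : Finset (Fin m)) else Finset.univ) := by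
      intro v hv
      rw [Finset.mem_filter] at hv
      rw [Fintype.mem_piFinset]
      intro j
      by_cases hj : j ∈ Ψ.image Prod.fst
      · rw [if_pos hj, Finset.mem_singleton]
        obtain ⟨p, hp, rfl⟩ := Finset.mem_image.mp hj
        rw [mem_gr.mp (hv.2 hp), mem_gr.mp (hv0 hp)]
      · rw [if_neg hj]
        exact Finset.mem_univ _
    have hcard : (Fintype.piFinset (fun j : Fin k =>
          if j ∈ Ψ.image Prod.fst then ({v0 j} : Finset (Fin m)) else Finset.univ)).card
        = ∏ j : Fin k, (if j ∈ Ψ.image Prod.fst then 1 else m) := by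
      rw [Fintype.card_piFinset]
      apply Finset.prod_congr rfl
      intro j _
      by_cases hj : j ∈ Ψ.image Prod.fst <;> simp [hj]
    calc (Finset.univ.filter (fun v : Fin k → Fin m => Ψ ⊆ gr v)).card * m ^ Ψ.card
        ≤ (∏ j : Fin k, (if j ∈ Ψ.image Prod.fst then 1 else m)) * m ^ Ψ.card := by
          apply Nat.mul_le_mul_right
          rw [← hcard]
          exact Finset.card_le_card hsub
      _ = m ^ k := by rw [← hJ]; exact prod_ite_mul_pow _
  · have : Finset.univ.filter (fun v : Fin k → Fin m => Ψ ⊆ gr v) = ∅ := by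
      apply Finset.filter_eq_empty_iff.mpr
      intro v _ hv
      exact hex ⟨v, hv⟩
    rw [this]
    simp

lemma choose_add_le (a r p : ℕ) : (a + p).choose (r + p) ≤ (a + p) ^ p * a.choose r := by
  induction p with
  | zero => simp
  | succ p ih =>
    have h1 : (a + p + 1).choose (r + p + 1) ≤ (a + p + 1) * (a + p).choose (r + p) := by
      rw [Nat.add_one_mul_choose_eq]
      exact Nat.le_mul_of_pos_right _ (Nat.succ_pos _)
    calc (a + (p + 1)).choose (r + (p + 1)) = (a + p + 1).choose (r + p + 1) := by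
          rw [← add_assoc, ← add_assoc]
      _ ≤ (a + p + 1) * (a + p).choose (r + p) := h1
      _ ≤ (a + p + 1) * ((a + p) ^ p * a.choose r) := Nat.mul_le_mul_left _ ih
      _ ≤ (a + p + 1) * ((a + p + 1) ^ p * a.choose r) := by
          apply Nat.mul_le_mul_left
          apply Nat.mul_le_mul_right
          exact Nat.pow_le_pow_left (Nat.le_succ _) _
      _ = (a + (p + 1)) ^ (p + 1) * a.choose r := by
          rw [← add_assoc, pow_succ]
          ring

/-- For a fixed vertex, cover the good cells by the families indexed by `Ψ = e \ c`. -/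
lemma count_fixed (e : Finset (Lam k m)) (v : Fin k → Fin m) :
    ((Finset.univ.powersetCard (k + d)).filter (fun c : Finset (Lam k m) => e ⊆ c ∪ gr v)).card
      ≤ ∑ Ψ ∈ e.powerset, (if Ψ ⊆ gr v then
        ((Finset.univ.powersetCard (k + d)).filter
          (fun c : Finset (Lam k m) => e \ Ψ ⊆ c)).card else 0) := by
  have hsub : (Finset.univ.powersetCard (k + d)).filter
      (fun c : Finset (Lam k m) => e ⊆ c ∪ gr v) ⊆
      (e.powerset.filter (fun Ψ => Ψ ⊆ gr v)).biUnion (fun Ψ =>
        (Finset.univ.powersetCard (k + d)).filter (fun c : Finset (Lam k m) => e \ Ψ ⊆ c)) := by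
    intro c hc
    rw [Finset.mem_filter] at hc
    rw [Finset.mem_biUnion]
    refine ⟨e \ c, ?_, ?_⟩
    · rw [Finset.mem_filter, Finset.mem_powerset]
      refine ⟨Finset.sdiff_subset, ?_⟩
      intro x hx
      rw [Finset.mem_sdiff] at hx
      rcases Finset.mem_union.mp (hc.2 hx.1) with h | h
      · exact absurd h hx.2
      · exact h
    · rw [Finset.mem_filter]
      refine ⟨hc.1, ?_⟩
      intro x hx
      rw [Finset.mem_sdiff, Finset.mem_sdiff] at hx
      by_contra hxc
      exact hx.2 ⟨hx.1, hxc⟩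
  calc _ ≤ _ := Finset.card_le_card hsub
    _ ≤ ∑ Ψ ∈ e.powerset.filter (fun Ψ => Ψ ⊆ gr v),
        ((Finset.univ.powersetCard (k + d)).filter
          (fun c : Finset (Lam k m) => e \ Ψ ⊆ c)).card := Finset.card_biUnion_le
    _ = _ := by rw [Finset.sum_filter]

/-- The contribution of one `Ψ`. -/
lemma count_term (hk : 0 < k) (e : Finset (Lam k m)) (he : e.card ≤ k + d)
    (Ψ : Finset (Lam k m)) (hΨ : Ψ ⊆ e) :
    (Finset.univ.filter (fun v : Fin k → Fin m => Ψ ⊆ gr v)).card *
      ((Finset.univ.powersetCard (k + d)).filter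
          (fun c : Finset (Lam k m) => e \ Ψ ⊆ c)).card
      ≤ k ^ (k + d) * m ^ k * (k * m - e.card).choose (k + d - e.card) := by
  have hadd : (e \ Ψ).card + Ψ.card = e.card := Finset.card_sdiff_add_card_eq_card hΨ
  have hekm : e.card ≤ k * m := by
    rw [← card_Lam]
    exact Finset.card_le_univ e
  have hN : ((Finset.univ.powersetCard (k + d)).filter
          (fun c : Finset (Lam k m) => e \ Ψ ⊆ c)).card
      = (k * m - (e \ Ψ).card).choose (k + d - (e \ Ψ).card) := by
    rw [← card_Lam (k := k) (m := m), ← card_supersets (e \ Ψ) (k + d) (by omega)]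
    apply congrArg Finset.card
    ext c
    simp only [Finset.mem_filter]
  rw [hN]
  have e1 : k * m - (e \ Ψ).card = (k * m - e.card) + Ψ.card := by omega
  have e2 : k + d - (e \ Ψ).card = (k + d - e.card) + Ψ.card := by omega
  rw [e1, e2]
  have h1 := choose_add_le (k * m - e.card) (k + d - e.card) Ψ.card
  have h2 : (k * m - e.card + Ψ.card) ^ Ψ.card ≤ (k * m) ^ Ψ.card :=
    Nat.pow_le_pow_left (by omega) _
  have h3 := nv_le Ψ
  have h4 : k ^ Ψ.card ≤ k ^ (k + d) := Nat.pow_le_pow_right hk (by omega)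
  calc (Finset.univ.filter (fun v : Fin k → Fin m => Ψ ⊆ gr v)).card *
        (k * m - e.card + Ψ.card).choose (k + d - e.card + Ψ.card)
      ≤ (Finset.univ.filter (fun v : Fin k → Fin m => Ψ ⊆ gr v)).card *
        ((k * m) ^ Ψ.card * (k * m - e.card).choose (k + d - e.card)) := by
        apply Nat.mul_le_mul_left
        exact h1.trans (Nat.mul_le_mul_right _ h2)
    _ = k ^ Ψ.card * ((Finset.univ.filter (fun v : Fin k → Fin m => Ψ ⊆ gr v)).card
          * m ^ Ψ.card) * (k * m - e.card).choose (k + d - e.card) := by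
        rw [mul_pow]
        ring
    _ ≤ k ^ (k + d) * m ^ k * (k * m - e.card).choose (k + d - e.card) := by
        apply Nat.mul_le_mul_right
        exact Nat.mul_le_mul h4 h3

/-- Counting pairs (vertex `v`, `d`-cell `c`) such that `c` and `v` together cover `e`. -/
lemma count_pairs (hk : 0 < k) (e : Finset (Lam k m)) (he : e.card ≤ k + d) :
    ∑ v : Fin k → Fin m,
      ((Finset.univ.powersetCard (k + d)).filter (fun c : Finset (Lam k m) => e ⊆ c ∪ gr v)).card
      ≤ (2 * k) ^ (k + d) * m ^ k * (k * m - e.card).choose (k + d - e.card) := by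
  calc ∑ v : Fin k → Fin m,
      ((Finset.univ.powersetCard (k + d)).filter (fun c : Finset (Lam k m) => e ⊆ c ∪ gr v)).card
      ≤ ∑ v : Fin k → Fin m, ∑ Ψ ∈ e.powerset, (if Ψ ⊆ gr v then
        ((Finset.univ.powersetCard (k + d)).filter
          (fun c : Finset (Lam k m) => e \ Ψ ⊆ c)).card else 0) :=
        Finset.sum_le_sum (fun v _ => count_fixed e v)
    _ = ∑ Ψ ∈ e.powerset, ∑ v : Fin k → Fin m, (if Ψ ⊆ gr v then
        ((Finset.univ.powersetCard (k + d)).filter
          (fun c : Finset (Lam k m) => e \ Ψ ⊆ c)).card else 0) := Finset.sum_comm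
    _ = ∑ Ψ ∈ e.powerset, (Finset.univ.filter (fun v : Fin k → Fin m => Ψ ⊆ gr v)).card *
      ((Finset.univ.powersetCard (k + d)).filter
          (fun c : Finset (Lam k m) => e \ Ψ ⊆ c)).card := by
        apply Finset.sum_congr rfl
        intro Ψ _
        rw [← Finset.sum_filter, Finset.sum_const, smul_eq_mul]
    _ ≤ ∑ _Ψ ∈ e.powerset, k ^ (k + d) * m ^ k * (k * m - e.card).choose (k + d - e.card) :=
        Finset.sum_le_sum (fun Ψ hΨ => count_term hk e he Ψ (Finset.mem_powerset.mp hΨ))
    _ = 2 ^ e.card * (k ^ (k + d) * m ^ k * (k * m - e.card).choose (k + d - e.card)) := by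
        rw [Finset.sum_const, Finset.card_powerset, smul_eq_mul]
    _ ≤ 2 ^ (k + d) * (k ^ (k + d) * m ^ k * (k * m - e.card).choose (k + d - e.card)) := by
        apply Nat.mul_le_mul_right
        exact Nat.pow_le_pow_right (by norm_num) he
    _ = (2 * k) ^ (k + d) * m ^ k * (k * m - e.card).choose (k + d - e.card) := by
        rw [mul_pow]
        ring

end Vale.Agent.P067
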