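import Vale.Agent.P067.Basic
import Vale.Agent.P067.DefsThin

namespace Vale.Agent.P067

open Finset
open scoped Classical

set_option linter.unusedSectionVars false

variable {V : Type} [Fintype V]

lemma dualBall_subset_succ (X : AbstractSimplicialComplex V) (d : ℕ) (τ0 : Finset V) (r : ℕ) :
    dualBall X d τ0 r ⊆ dualBall X d τ0 (r + 1) := by
  intro t ht
  simp only [dualBall, Finset.mem_union]
  exact Or.inl ht

lemma dualBall_mono (X : AbstractSimplicialComplex V) (d : ℕ) (τ0 : Finset V) {r r' : ℕ}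
    (h : r ≤ r') : dualBall X d τ0 r ⊆ dualBall X d τ0 r' := by
  induction h with
  | refl => exact Finset.Subset.refl _
  | step _ ih => exact ih.trans (dualBall_subset_succ X d τ0 _)

lemma base_mem_dualBall (X : AbstractSimplicialComplex V) (d : ℕ) (τ0 : Finset V) (r : ℕ) :
    τ0 ∈ dualBall X d τ0 r :=
  dualBall_mono X d τ0 (Nat.zero_le r) (by simp [dualBall])

lemma dualBall_subset_F {X : AbstractSimplicialComplex V} {d : ℕ} {τ0 : Finset V}
    (h0 : τ0 ∈ F X d) (r : ℕ) : dualBall X d τ0 r ⊆ F X d := by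
  induction r with
  | zero =>
    intro t ht
    simp only [dualBall, Finset.mem_singleton] at ht
    rw [ht]; exact h0
  | succ r ih =>
    intro t ht
    simp only [dualBall, Finset.mem_union, Finset.mem_filter] at ht
    rcases ht with h | h
    · exact ih h
    · exact h.1

lemma cofaces_eq_pair {X : AbstractSimplicialComplex V} {d : ℕ} {σ τ τ' : Finset V}
    (hdeg : deg X d σ = 2) (hτ : τ ∈ F X d) (hτ' : τ' ∈ F X d) (hne : τ ≠ τ')
    (h1 : σ ⊆ τ) (h2 : σ ⊆ τ') : (F X d).filter (fun t => σ ⊆ t) = {τ, τ'} := by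
  symm
  apply Finset.eq_of_subset_of_card_le
  · intro t ht
    simp only [Finset.mem_insert, Finset.mem_singleton] at ht
    rcases ht with rfl | rfl
    · exact Finset.mem_filter.mpr ⟨hτ, h1⟩
    · exact Finset.mem_filter.mpr ⟨hτ', h2⟩
  · rw [Finset.card_pair hne]
    exact le_of_eq hdeg

lemma exists_path_cochain {X : AbstractSimplicialComplex V} {e : ℕ} {τ0 : Finset V}
    (h0 : τ0 ∈ F X (e + 1)) {L : ℕ}
    (thin : ∀ τ ∈ dualBall X (e + 1) τ0 L, ∀ σ ∈ F X e, σ ⊆ τ → deg X (e + 1) σ = 2) :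
    ∀ r ≤ L + 1, ∀ τ ∈ dualBall X (e + 1) τ0 r,
      ∃ f : Finset V → ZMod 2, ∀ t ∈ F X (e + 1), cob e f t = ind τ0 t + ind τ t := by
  intro r
  induction r with
  | zero =>
    intro _ τ hτ
    simp only [dualBall, Finset.mem_singleton] at hτ
    refine ⟨0, fun t _ => ?_⟩
    rw [hτ, cob_zero, zmod2_add_self]
    rfl
  | succ r ih =>
    intro hr τ hτ
    simp only [dualBall, Finset.mem_union, Finset.mem_filter] at hτ
    rcases hτ with h | ⟨hτF, τ', hτ', hcard⟩
    · exact ih (by omega) τ h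
    · obtain ⟨f, hf⟩ := ih (by omega) τ' hτ'
      have hτ'F : τ' ∈ F X (e + 1) := dualBall_subset_F h0 r hτ'
      have hne : τ ≠ τ' := by
        rintro rfl
        rw [Finset.inter_self, (mem_F.mp hτF).2] at hcard
        omega
      have hσ : τ ∩ τ' ∈ F X e := mem_F_of_subset hτF Finset.inter_subset_left hcard
      have hdeg : deg X (e + 1) (τ ∩ τ') = 2 :=
        thin τ' (dualBall_mono X (e + 1) τ0 (by omega) hτ') _ hσ Finset.inter_subset_right
      have hpair := cofaces_eq_pair hdeg hτF hτ'F hne Finset.inter_subset_left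
        Finset.inter_subset_right
      refine ⟨f + ind (τ ∩ τ'), fun t ht => ?_⟩
      rw [cob_add, Pi.add_apply, hf t ht, cob_ind hcard]
      have hiff : (τ ∩ τ' ⊆ t) ↔ (t = τ ∨ t = τ') := by
        have : t ∈ (F X (e + 1)).filter (fun t => τ ∩ τ' ⊆ t) ↔ t ∈ ({τ, τ'} : Finset (Finset V)) := by
          rw [hpair]
        simp only [Finset.mem_filter, Finset.mem_insert, Finset.mem_singleton] at this
        constructor
        · intro h; exact this.mp ⟨ht, h⟩
        · intro h; exact (this.mpr h).2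
      unfold ind
      by_cases h1 : t = τ
      · have h2 : t ≠ τ' := by rw [h1]; exact hne
        have h3 : τ ∩ τ' ⊆ t := hiff.mpr (Or.inl h1)
        simp only [h1, if_true]
        rw [if_neg hne, if_pos Finset.inter_subset_left]
        ring
      · by_cases h2 : t = τ'
        · have h3 : τ ∩ τ' ⊆ t := hiff.mpr (Or.inr h2)
          rw [if_pos h2, if_pos h3, if_neg h1, add_assoc, zmod2_add_self]
        · have h3 : ¬ (τ ∩ τ' ⊆ t) := fun h => by
            rcases hiff.mp h with h | h
            · exact h1 h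
            · exact h2 h
          rw [if_neg h2, if_neg h3, if_neg h1, add_zero]

/-- Double counting: if the coboundary of `g` has odd total over a set `B` of `(e+1)`-faces, then
some `e`-face in the support of `g` lies in an odd number of members of `B`. -/
lemma exists_cut_face {X : AbstractSimplicialComplex V} {e : ℕ} {B : Finset (Finset V)}
    (hB : B ⊆ F X (e + 1)) {g : Finset V → ZMod 2} (hsum : ∑ t ∈ B, cob e g t ≠ 0) :
    ∃ s ∈ F X e, g s ≠ 0 ∧ Odd ((B.filter (fun t => s ⊆ t)).card) := by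
  by_contra hcon
  push_neg at hcon
  apply hsum
  unfold cob
  have h1 : ∑ t ∈ B, ∑ s ∈ t.powersetCard (e + 1), g s
      = ∑ s ∈ F X e, ∑ t ∈ B.filter (fun t => s ⊆ t), g s := by
    apply Finset.sum_comm'
    intro t s
    simp only [Finset.mem_powersetCard, Finset.mem_filter]
    constructor
    · rintro ⟨ht, hst, hs⟩
      exact ⟨⟨ht, hst⟩, mem_F_of_subset (hB ht) hst hs⟩
    · rintro ⟨⟨ht, hst⟩, hs⟩
      exact ⟨ht, hst, (mem_F.mp hs).2⟩
  rw [h1]
  apply Finset.sum_eq_zero
  intro s hs
  rw [Finset.sum_const, nsmul_eq_mul]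
  by_cases hg : g s = 0
  · rw [hg, mul_zero]
  · have := hcon s hs hg
    rw [Nat.not_odd_iff_even] at this
    rw [(ZMod.natCast_eq_zero_iff_even).mpr this, zero_mul]

theorem thin_ball (X : AbstractSimplicialComplex V) (e : ℕ) (ε : ℝ)
    (hexp : IsCobExp X (e + 1) ε) (τ0 : Finset V) (h0 : τ0 ∈ F X (e + 1)) (L : ℕ)
    (thin : ∀ τ ∈ dualBall X (e + 1) τ0 L, ∀ σ ∈ F X e, σ ⊆ τ → deg X (e + 1) σ = 2)
    (grow : dualBall X (e + 1) τ0 (L + 1) ≠ dualBall X (e + 1) τ0 L) :
    ε * ((L : ℝ) + 1) ≤ (e : ℝ) + 2 := by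
  -- a face in the last layer
  obtain ⟨τ1, hτ1, hτ1'⟩ : ∃ τ1 ∈ dualBall X (e + 1) τ0 (L + 1), τ1 ∉ dualBall X (e + 1) τ0 L := by
    by_contra hcon
    push_neg at hcon
    exact grow (Finset.Subset.antisymm hcon (dualBall_subset_succ X (e + 1) τ0 L))
  have hτ1F : τ1 ∈ F X (e + 1) := dualBall_subset_F h0 _ hτ1
  have hne : τ0 ≠ τ1 := by
    rintro rfl
    exact hτ1' (base_mem_dualBall X (e + 1) _ L)
  obtain ⟨f, hf⟩ := exists_path_cochain h0 thin (L + 1) le_rfl τ1 hτ1
  obtain ⟨b, hb, hineq⟩ := hexp e (Nat.lt_succ_self e) f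
  set g := f - b with hg
  have hgcob : ∀ t ∈ F X (e + 1), cob e g t = ind τ0 t + ind τ1 t := by
    intro t ht
    rw [hg, cob_sub, Pi.sub_apply, cob_of_isCobdry hb ht, sub_zero, hf t ht]
  -- the cut faces
  have hcut : ∀ r ∈ Finset.range (L + 1), ∃ s ∈ F X e, g s ≠ 0 ∧ deg X (e + 1) s = 2 ∧
      ((dualBall X (e + 1) τ0 r).filter (fun t => s ⊆ t)).card = 1 := by
    intro r hr
    rw [Finset.mem_range] at hr
    have hBF := dualBall_subset_F h0 r
    have hsum : ∑ t ∈ dualBall X (e + 1) τ0 r, cob e g t ≠ 0 := by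
      rw [Finset.sum_congr rfl (fun t ht => hgcob t (hBF ht)), Finset.sum_add_distrib]
      unfold ind
      rw [Finset.sum_ite_eq', Finset.sum_ite_eq', if_pos (base_mem_dualBall X (e + 1) τ0 r),
        if_neg (fun h => hτ1' (dualBall_mono X (e + 1) τ0 (by omega) h))]
      decide
    obtain ⟨s, hs, hgs, hodd⟩ := exists_cut_face hBF hsum
    have hpos : 0 < ((dualBall X (e + 1) τ0 r).filter (fun t => s ⊆ t)).card := hodd.pos
    obtain ⟨τ, hτ⟩ := Finset.card_pos.mp hpos
    rw [Finset.mem_filter] at hτ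
    have hdeg : deg X (e + 1) s = 2 :=
      thin τ (dualBall_mono X (e + 1) τ0 (by omega) hτ.1) s hs hτ.2
    have hle : ((dualBall X (e + 1) τ0 r).filter (fun t => s ⊆ t)).card ≤ 2 := by
      rw [← hdeg]
      exact Finset.card_le_card (Finset.filter_subset_filter _ hBF)
    refine ⟨s, hs, hgs, hdeg, ?_⟩
    rcases hodd with ⟨k, hk⟩
    omega
  choose! σ hσF hσg hσdeg hσcut using hcut
  -- faces cut at radius r are not cut at a larger radius
  have hfull : ∀ r ∈ Finset.range (L + 1), ∀ r', r < r' →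
      ((dualBall X (e + 1) τ0 r').filter (fun t => σ r ⊆ t)).card = 2 := by
    intro r hr r' hrr'
    have hBF := dualBall_subset_F h0 r
    obtain ⟨τ, hτ⟩ := Finset.card_eq_one.mp (hσcut r hr)
    have hτm : τ ∈ (dualBall X (e + 1) τ0 r).filter (fun t => σ r ⊆ t) := by
      rw [hτ]; exact Finset.mem_singleton_self τ
    rw [Finset.mem_filter] at hτm
    have hsub : (F X (e + 1)).filter (fun t => σ r ⊆ t)
        ⊆ (dualBall X (e + 1) τ0 r').filter (fun t => σ r ⊆ t) := by
      intro t ht
      rw [Finset.mem_filter] at ht ⊢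
      refine ⟨dualBall_mono X (e + 1) τ0 hrr' ?_, ht.2⟩
      by_cases hteq : t = τ
      · rw [hteq]; exact dualBall_subset_succ X (e + 1) τ0 r hτm.1
      · simp only [dualBall, Finset.mem_union, Finset.mem_filter]
        refine Or.inr ⟨ht.1, τ, hτm.1, ?_⟩
        have h1 : σ r ⊆ t ∩ τ := Finset.subset_inter ht.2 hτm.2
        have h2 : (σ r).card = e + 1 := (mem_F.mp (hσF r hr)).2
        have h3 : (t ∩ τ).card < t.card := by
          apply Finset.card_lt_card
          refine ⟨Finset.inter_subset_left, fun h => hteq ?_⟩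
          have h4 : t ⊆ τ := fun x hx => (Finset.mem_inter.mp (h hx)).2
          exact Finset.eq_of_subset_of_card_le h4 (by
            rw [(mem_F.mp ht.1).2, (mem_F.mp (hBF hτm.1)).2])
        have h5 := Finset.card_le_card h1
        rw [(mem_F.mp ht.1).2] at h3
        omega
    apply le_antisymm
    · rw [← hσdeg r hr]
      exact Finset.card_le_card (Finset.filter_subset_filter _ (dualBall_subset_F h0 r'))
    · rw [← hσdeg r hr]
      exact Finset.card_le_card hsub
  have hinj : Set.InjOn σ (Finset.range (L + 1) : Set ℕ) := by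
    intro r hr r' hr' heq
    by_contra hne'
    rcases Nat.lt_or_gt_of_ne hne' with h | h
    · have h1 := hfull r hr r' h
      have h2 := hσcut r' hr'
      rw [heq] at h1
      omega
    · have h1 := hfull r' hr' r h
      have h2 := hσcut r hr
      rw [← heq] at h1
      omega
  -- lower bound for the mass of g
  have hmass : 2 * (L + 1) ≤ mass X (e + 1) e g := by
    unfold mass
    have hsub : (Finset.range (L + 1)).image σ ⊆ (F X e).filter (fun s => g s ≠ 0) := by
      intro s hs
      rw [Finset.mem_image] at hs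
      obtain ⟨r, hr, rfl⟩ := hs
      exact Finset.mem_filter.mpr ⟨hσF r hr, hσg r hr⟩
    calc 2 * (L + 1) = ∑ r ∈ Finset.range (L + 1), deg X (e + 1) (σ r) := by
          rw [Finset.sum_congr rfl hσdeg, Finset.sum_const, Finset.card_range, smul_eq_mul,
            mul_comm]
      _ = ∑ s ∈ (Finset.range (L + 1)).image σ, deg X (e + 1) s := by
          rw [Finset.sum_image hinj]
      _ ≤ _ := Finset.sum_le_sum_of_subset hsub
  -- the mass of the coboundary
  have hmass2 : mass X (e + 1) (e + 1) (cob e f) = 2 := by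
    rw [mass_congr hf]
    unfold mass
    have hsupp : (F X (e + 1)).filter (fun s => ind τ0 s + ind τ1 s ≠ 0) = {τ0, τ1} := by
      ext t
      rw [Finset.mem_filter, Finset.mem_insert, Finset.mem_singleton]
      unfold ind
      constructor
      · rintro ⟨_, h⟩
        by_contra hcon
        push_neg at hcon
        rw [if_neg hcon.1, if_neg hcon.2] at h
        exact h (by decide)
      · rintro (rfl | rfl)
        · refine ⟨h0, ?_⟩
          rw [if_pos rfl, if_neg hne]
          decide
        · refine ⟨hτ1F, ?_⟩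
          rw [if_pos rfl, if_neg hne.symm]
          decide
    rw [hsupp, Finset.sum_pair hne, deg_top h0, deg_top hτ1F]
  rw [nrm_eq, nrm_eq, hmass2] at hineq
  have hM : (0 : ℝ) < ((F X (e + 1)).card : ℝ) := by
    exact_mod_cast Finset.card_pos.mpr ⟨τ0, h0⟩
  have hc1 : ((e + 1 + 1).choose (e + 1) : ℝ) = (e : ℝ) + 2 := by
    rw [Nat.choose_succ_self_right]; push_cast; ring
  have hc2 : ((e + 1 + 1).choose (e + 1 + 1) : ℝ) = 1 := by
    rw [Nat.choose_self]; norm_num
  rw [hc1, hc2, one_mul] at hineq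
  by_cases hε : ε ≤ 0
  · have : ε * ((L : ℝ) + 1) ≤ 0 := mul_nonpos_of_nonpos_of_nonneg hε (by positivity)
    have h2 : (0 : ℝ) ≤ (e : ℝ) + 2 := by positivity
    linarith
  · push_neg at hε
    have hm : (2 * ((L : ℝ) + 1)) ≤ (mass X (e + 1) e g : ℝ) := by exact_mod_cast hmass
    have he : (0 : ℝ) < (e : ℝ) + 2 := by positivity
    have h1 : ε * ((2 * ((L : ℝ) + 1)) / (((e : ℝ) + 2) * ((F X (e + 1)).card : ℝ)))
        ≤ ((2 : ℕ) : ℝ) / ((F X (e + 1)).card : ℝ) := by
      refine le_trans ?_ hineq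
      apply mul_le_mul_of_nonneg_left _ hε.le
      apply div_le_div_of_nonneg_right hm
      positivity
    rw [mul_div_assoc', div_le_div_iff₀ (by positivity) hM] at h1
    push_cast at h1
    nlinarith [h1, hM, he]

end Vale.Agent.P067
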