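import Vale.Agent.P067.Bottom

namespace Vale.Agent.P067

open Finset
open scoped Classical

set_option linter.unusedSectionVars false

variable {V : Type} [Fintype V]

lemma deg_pos_of_pure {X : AbstractSimplicialComplex V} {d i : ℕ} (hp : IsPure X d)
    {s : Finset V} (hs : s ∈ F X i) : 1 ≤ deg X d s := by
  obtain ⟨t, ht, hst⟩ := hp s (mem_F.mp hs).1
  unfold deg
  exact Finset.card_pos.mpr ⟨t, Finset.mem_filter.mpr ⟨ht, hst⟩⟩

lemma deg_le_of_degLE {X : AbstractSimplicialComplex V} {d D i : ℕ} (hD : DegLE X d D)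
    {s : Finset V} (hs : s ∈ F X i) : deg X d s ≤ D := by
  have hne : s.Nonempty := by
    rw [← Finset.card_pos, (mem_F.mp hs).2]; omega
  obtain ⟨v, hv⟩ := hne
  refine le_trans ?_ (hD v)
  unfold deg
  apply Finset.card_le_card
  intro t ht
  rw [Finset.mem_filter] at ht ⊢
  exact ⟨ht.1, fun w hw => ht.2 (by rw [Finset.mem_singleton.mp hw]; exact hv)⟩

lemma exists_insert_of_card_succ {σ τ : Finset V} (h : σ ⊆ τ) (hc : τ.card = σ.card + 1) :
    ∃ v ∈ τ, v ∉ σ ∧ τ = insert v σ := by
  have hc' : (τ \ σ).card = 1 := by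
    rw [Finset.card_sdiff_of_subset h]; omega
  obtain ⟨v, hv⟩ := Finset.card_eq_one.mp hc'
  have hvm : v ∈ τ \ σ := by rw [hv]; exact Finset.mem_singleton_self v
  rw [Finset.mem_sdiff] at hvm
  refine ⟨v, hvm.1, hvm.2, ?_⟩
  have : τ = (τ \ σ) ∪ σ := (Finset.sdiff_union_of_subset h).symm
  rw [this, hv]
  rfl

lemma cofaceLE_of {X : AbstractSimplicialComplex V} {d D : ℕ} (hp : IsPure X d)
    (hD : DegLE X d D) : CofaceLE X (D * (d + 1)) := by
  intro i σ hσ
  have hsub : (F X (i + 1)).filter (fun τ => σ ⊆ τ) ⊆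
      ((F X d).filter (fun t => σ ⊆ t)).biUnion (fun t => t.image (fun v => insert v σ)) := by
    intro τ hτ
    rw [Finset.mem_filter] at hτ
    obtain ⟨t, ht, hτt⟩ := hp τ (mem_F.mp hτ.1).1
    rw [Finset.mem_biUnion]
    refine ⟨t, Finset.mem_filter.mpr ⟨ht, hτ.2.trans hτt⟩, ?_⟩
    obtain ⟨v, hv, _, heq⟩ := exists_insert_of_card_succ hτ.2 (by
      rw [(mem_F.mp hτ.1).2, (mem_F.mp hσ).2])
    rw [Finset.mem_image]
    exact ⟨v, hτt hv, heq.symm⟩
  refine le_trans (Finset.card_le_card hsub) ?_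
  refine le_trans (Finset.card_biUnion_le_card_mul _ _ (d + 1) ?_) ?_
  · intro t ht
    refine le_trans Finset.card_image_le ?_
    rw [(mem_F.mp (Finset.mem_filter.mp ht).1).2]
  · exact Nat.mul_le_mul_right _ (deg_le_of_degLE hD hσ)

lemma cnt_le_mass {X : AbstractSimplicialComplex V} {d : ℕ} (hp : IsPure X d) (i : ℕ)
    (f : Finset V → ZMod 2) : cnt X i f ≤ mass X d i f := by
  unfold cnt mass
  rw [Finset.card_eq_sum_ones]
  apply Finset.sum_le_sum
  intro s hs
  exact deg_pos_of_pure hp (Finset.mem_filter.mp hs).1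

lemma mass_le_cnt {X : AbstractSimplicialComplex V} {d D : ℕ} (hD : DegLE X d D) (i : ℕ)
    (f : Finset V → ZMod 2) : mass X d i f ≤ D * cnt X i f := by
  unfold cnt mass
  rw [mul_comm, ← smul_eq_mul, ← Finset.sum_const]
  apply Finset.sum_le_sum
  intro s hs
  exact deg_le_of_degLE hD (Finset.mem_filter.mp hs).1

lemma cexp_of_isCobExp {X : AbstractSimplicialComplex V} {d D K0 : ℕ} {ε : ℝ} (hε : 0 < ε)
    (hp : IsPure X d) (hD : DegLE X d D) (hexp : IsCobExp X d ε)
    (hK0 : ((2 : ℝ) ^ (d + 1) * D) / ε ≤ K0) : CExp X d K0 := by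
  intro i hi f
  obtain ⟨b, hb, hle⟩ := hexp i hi f
  refine ⟨b, hb, ?_⟩
  by_cases hM : (F X d).card = 0
  · have hempty : F X i = ∅ := by
      rw [Finset.eq_empty_iff_forall_notMem]
      intro s hs
      obtain ⟨t, ht, _⟩ := hp s (mem_F.mp hs).1
      rw [Finset.card_eq_zero] at hM
      rw [hM] at ht
      exact absurd ht (Finset.notMem_empty t)
    have : cnt X i (f - b) = 0 := by
      unfold cnt
      rw [hempty]
      simp
    rw [this]
    exact Nat.zero_le _
  · have hMpos : (0 : ℝ) < ((F X d).card : ℝ) := by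
      exact_mod_cast Nat.pos_of_ne_zero hM
    rw [nrm_eq, nrm_eq] at hle
    set a := cnt X i (f - b) with ha
    set c := cnt X (i + 1) (cob i f) with hc
    have h1 : (a : ℝ) ≤ (mass X d i (f - b) : ℝ) := by exact_mod_cast cnt_le_mass hp i (f - b)
    have h2 : (mass X d (i + 1) (cob i f) : ℝ) ≤ (D : ℝ) * c := by
      exact_mod_cast mass_le_cnt hD (i + 1) (cob i f)
    have hC1pos : (0 : ℝ) < ((d + 1).choose (i + 1) : ℝ) := by
      exact_mod_cast Nat.choose_pos (by omega)
    have hC1le : ((d + 1).choose (i + 1) : ℝ) ≤ (2 : ℝ) ^ (d + 1) := by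
      exact_mod_cast Nat.choose_le_two_pow (d + 1) (i + 1)
    have hC2 : (1 : ℝ) ≤ ((d + 1).choose (i + 1 + 1) : ℝ) := by
      exact_mod_cast Nat.choose_pos (by omega)
    -- clear denominators
    have h3 : ε * (a : ℝ) / (((d + 1).choose (i + 1) : ℝ) * ((F X d).card : ℝ))
        ≤ ((D : ℝ) * c) / ((F X d).card : ℝ) := by
      calc ε * (a : ℝ) / (((d + 1).choose (i + 1) : ℝ) * ((F X d).card : ℝ))
          ≤ ε * ((mass X d i (f - b) : ℝ) / (((d + 1).choose (i + 1) : ℝ) * ((F X d).card : ℝ))) := by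
            rw [mul_div_assoc]
            apply mul_le_mul_of_nonneg_left _ hε.le
            apply div_le_div_of_nonneg_right h1
            positivity
        _ ≤ _ := hle
        _ ≤ ((D : ℝ) * c) / (((d + 1).choose (i + 1 + 1) : ℝ) * ((F X d).card : ℝ)) := by
            apply div_le_div_of_nonneg_right h2
            positivity
        _ ≤ ((D : ℝ) * c) / ((F X d).card : ℝ) := by
            apply div_le_div_of_nonneg_left (by positivity) hMpos
            nlinarith
    rw [div_le_div_iff₀ (by positivity) hMpos] at h3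
    have h4 : ε * (a : ℝ) ≤ (D : ℝ) * c * ((d + 1).choose (i + 1) : ℝ) := by
      have : ε * (a : ℝ) * ((F X d).card : ℝ)
          ≤ ((D : ℝ) * c * ((d + 1).choose (i + 1) : ℝ)) * ((F X d).card : ℝ) := by
        calc ε * (a : ℝ) * ((F X d).card : ℝ)
            ≤ (D : ℝ) * c * (((d + 1).choose (i + 1) : ℝ) * ((F X d).card : ℝ)) := h3
          _ = _ := by ring
      exact le_of_mul_le_mul_right this hMpos
    have h5 : (a : ℝ) ≤ (K0 : ℝ) * c := by
      have hc0 : (0 : ℝ) ≤ (c : ℝ) := Nat.cast_nonneg c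
      have hD0 : (0 : ℝ) ≤ (D : ℝ) := Nat.cast_nonneg D
      have h6 : ε * (a : ℝ) ≤ ε * ((K0 : ℝ) * c) := by
        calc ε * (a : ℝ) ≤ (D : ℝ) * c * ((d + 1).choose (i + 1) : ℝ) := h4
          _ ≤ (D : ℝ) * c * (2 : ℝ) ^ (d + 1) :=
              mul_le_mul_of_nonneg_left hC1le (by positivity)
          _ = ε * (((2 : ℝ) ^ (d + 1) * D) / ε * c) := by
              field_simp
          _ ≤ ε * ((K0 : ℝ) * c) := by
              apply mul_le_mul_of_nonneg_left _ hε.le
              exact mul_le_mul_of_nonneg_right hK0 hc0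
      exact le_of_mul_le_mul_left h6 hε
    exact_mod_cast h5

lemma card_le_of_bottom {X : AbstractSimplicialComplex V} {D1 K : ℕ} (hco : CofaceLE X D1)
    (G : Finset V → Finset V → ZMod 2) (hK : ∀ σ ∈ F X 1, cnt X 0 (G σ) ≤ K)
    (hG : ∀ u : Finset V → ZMod 2, ∃ c : ZMod 2, ∀ v : V,
        u {v} + lin (F X 1) (cob 0 u) G {v} = c) :
    Fintype.card V ≤ 2 * (D1 + 1) ^ (4 * K * D1) := by
  set N := Fintype.card V with hN
  -- total size of the sets `Eset`
  have hS1 : ∑ v : V, (Eset X G v).card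
      = ∑ e ∈ F X 1, (Finset.univ.filter (fun v : V => G e {v} ≠ 0)).card := by
    unfold Eset
    simp only [Finset.card_filter]
    rw [Finset.sum_comm]
  have hS2 : ∀ e ∈ F X 1, (Finset.univ.filter (fun v : V => G e {v} ≠ 0)).card ≤ K := by
    intro e he
    refine le_trans ?_ (hK e he)
    unfold cnt
    apply Finset.card_le_card_of_injOn (fun v => ({v} : Finset V))
    · intro v hv
      simp only [Finset.coe_filter, Finset.mem_univ, true_and, Set.mem_ofPred_eq] at hv
      simp only [Finset.coe_filter, Set.mem_ofPred_eq]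
      exact ⟨singleton_mem_F X v, hv⟩
    · intro v _ w _ h
      exact Finset.singleton_inj.mp h
  have hS3 : (F X 1).card ≤ N * D1 := by
    have hsub : F X 1 ⊆ (Finset.univ : Finset V).biUnion
        (fun v => (F X (0 + 1)).filter (fun τ => ({v} : Finset V) ⊆ τ)) := by
      intro e he
      have hne : e.Nonempty := by
        rw [← Finset.card_pos, (mem_F.mp he).2]; omega
      obtain ⟨v, hv⟩ := hne
      rw [Finset.mem_biUnion]
      exact ⟨v, Finset.mem_univ v, Finset.mem_filter.mpr ⟨he, by simpa using hv⟩⟩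
    refine le_trans (Finset.card_le_card hsub) ?_
    refine le_trans (Finset.card_biUnion_le_card_mul _ _ D1
      (fun v _ => hco 0 {v} (singleton_mem_F X v))) ?_
    rw [Finset.card_univ]
  have hS : ∑ v : V, (Eset X G v).card ≤ K * D1 * N := by
    rw [hS1]
    calc ∑ e ∈ F X 1, (Finset.univ.filter (fun v : V => G e {v} ≠ 0)).card
        ≤ ∑ e ∈ F X 1, K := Finset.sum_le_sum hS2
      _ = (F X 1).card * K := by rw [Finset.sum_const, smul_eq_mul]
      _ ≤ (N * D1) * K := Nat.mul_le_mul_right _ hS3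
      _ = K * D1 * N := by ring
  set bad := Finset.univ.filter (fun v : V => 2 * K * D1 < (Eset X G v).card) with hbad
  set good := Finset.univ.filter (fun v : V => ¬ 2 * K * D1 < (Eset X G v).card) with hgood
  have hsplit : bad.card + good.card = N := by
    rw [hbad, hgood, Finset.card_filter_add_card_filter_not, Finset.card_univ]
  have hbad1 : bad.card * (2 * K * D1 + 1) ≤ K * D1 * N := by
    refine le_trans ?_ hS
    calc bad.card * (2 * K * D1 + 1) = ∑ v ∈ bad, (2 * K * D1 + 1) := by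
          rw [Finset.sum_const, smul_eq_mul]
      _ ≤ ∑ v ∈ bad, (Eset X G v).card := by
          apply Finset.sum_le_sum
          intro v hv
          exact (Finset.mem_filter.mp hv).2
      _ ≤ ∑ v : V, (Eset X G v).card :=
          Finset.sum_le_sum_of_subset (Finset.subset_univ _)
  have hbad2 : 2 * bad.card ≤ N := by
    rcases Nat.eq_zero_or_pos (K * D1) with h0 | hpos
    · have : 2 * K * D1 = 0 := by rw [mul_assoc, h0, mul_zero]
      rw [this, h0] at hbad1
      omega
    · have h1 : (K * D1) * (2 * bad.card) ≤ (K * D1) * N := by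
        calc (K * D1) * (2 * bad.card) = bad.card * (2 * K * D1) := by ring
          _ ≤ bad.card * (2 * K * D1 + 1) := Nat.mul_le_mul_left _ (Nat.le_succ _)
          _ ≤ K * D1 * N := hbad1
      exact Nat.le_of_mul_le_mul_left h1 hpos
  rcases good.eq_empty_or_nonempty with hempty | ⟨x0, hx0⟩
  · rw [hempty, Finset.card_empty] at hsplit
    have : N = 0 := by omega
    rw [this]
    exact Nat.zero_le _
  · have hsub : good ⊆ vBall X x0 (4 * K * D1) := by
      intro y hy
      by_contra hny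
      have h1 := far_apart hG x0 y (4 * K * D1) hny
      have h2 := (Finset.mem_filter.mp hx0).2
      have h3 := (Finset.mem_filter.mp hy).2
      push_neg at h2 h3
      have h4 : 4 * K * D1 = 2 * K * D1 + 2 * K * D1 := by ring
      omega
    have h5 : good.card ≤ (D1 + 1) ^ (4 * K * D1) :=
      le_trans (Finset.card_le_card hsub) (card_vBall_le hco x0 _)
    omega

theorem top_cohomology (e D : ℕ) (ε : ℝ) (hε : 0 < ε) :
    ∃ N0 : ℕ, ∀ (V : Type) [Fintype V] (X : AbstractSimplicialComplex V),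
      IsPure X (e + 1) → DegLE X (e + 1) D → IsCobExp X (e + 1) ε →
      (∀ h : Finset V → ZMod 2, IsCobdry X (e + 1) h) → Fintype.card V ≤ N0 := by
  set K0 := ⌈((2 : ℝ) ^ (e + 1 + 1) * D) / ε⌉₊ with hK0
  set D1 := D * (e + 1 + 1) with hD1
  refine ⟨2 * (D1 + 1) ^ (4 * Kseq K0 D1 e * D1), ?_⟩
  intro V _ X hp hD hexp hacyc
  have hC : CExp X (e + 1) K0 := cexp_of_isCobExp hε hp hD hexp (Nat.le_ceil _)
  have hco : CofaceLE X D1 := cofaceLE_of hp hD
  have hcontr := hasContr_all hC hco hacyc e 0 (by omega)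
  obtain ⟨G, hK, hG⟩ := bottom (Nat.succ_pos e) hC hcontr
  exact card_le_of_bottom hco G hK hG

end Vale.Agent.P067
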